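import Mathlib
import Vale.Agent.P124.R2.H124.Core

open Filter Topology
open scoped NNReal ENNReal

namespace Vale.Agent.P124.H440

open Vale.Agent.P124.R2

/-- `X` is `c`-L-embedded: there is a linear projection `P` of the bidual of `X` onto `X` with
`‖P ξ‖ + c ‖ξ - P ξ‖ ≤ ‖ξ‖` for all `ξ` in the bidual. For `c = 1` this is the usual notion of an
L-embedded space. -/
def LEmb (c : ℝ) (X : Type*) [NormedAddCommGroup X] [NormedSpace ℝ X] : Prop :=
  ∃ P : StrongDual ℝ (StrongDual ℝ X) →ₗ[ℝ] X,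
    (∀ x : X, P (NormedSpace.inclusionInDoubleDual ℝ X x) = x) ∧
    ∀ ξ : StrongDual ℝ (StrongDual ℝ X),
      ‖P ξ‖ + c * ‖ξ - NormedSpace.inclusionInDoubleDual ℝ X (P ξ)‖ ≤ ‖ξ‖

/-- `X` is `κ`-split: there is a bounded linear projection `P` of the bidual of `X` onto `X` such
that for all `ξ` in the bidual one of `‖P ξ‖` and `‖ξ - P ξ‖` is at most `κ ‖ξ‖`. -/
def Split (κ : ℝ) (X : Type*) [NormedAddCommGroup X] [NormedSpace ℝ X] : Prop :=
  ∃ P : StrongDual ℝ (StrongDual ℝ X) →ₗ[ℝ] X,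
    (∀ x : X, P (NormedSpace.inclusionInDoubleDual ℝ X x) = x) ∧
    (∃ B : ℝ, ∀ ξ, ‖P ξ‖ ≤ B * ‖ξ‖) ∧
    ∀ ξ : StrongDual ℝ (StrongDual ℝ X),
      min ‖P ξ‖ ‖ξ - NormedSpace.inclusionInDoubleDual ℝ X (P ξ)‖ ≤ κ * ‖ξ‖

lemma LEmb.split {c : ℝ} (hc : 0 ≤ c) {X : Type*} [NormedAddCommGroup X] [NormedSpace ℝ X]
    (h : LEmb c X) : Split (1 / (1 + c)) X := by
  obtain ⟨P, hPJ, hP⟩ := h
  refine ⟨P, hPJ, ⟨1, fun ξ => ?_⟩, fun ξ => ?_⟩
  · have h1 := hP ξ
    have h2 : 0 ≤ c * ‖ξ - NormedSpace.inclusionInDoubleDual ℝ X (P ξ)‖ := by positivity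
    linarith
  · have h1 := hP ξ
    rw [one_div, ← div_eq_inv_mul, le_div_iff₀ (by linarith)]
    have h2 := min_le_left ‖P ξ‖ ‖ξ - NormedSpace.inclusionInDoubleDual ℝ X (P ξ)‖
    have h3 := min_le_right ‖P ξ‖ ‖ξ - NormedSpace.inclusionInDoubleDual ℝ X (P ξ)‖
    have h4 := mul_le_mul_of_nonneg_left h3 hc
    linarith

/-- A bounded additive map is a bounded linear operator. -/
lemma clm_of_additive {V Z : Type*} [NormedAddCommGroup V] [NormedSpace ℝ V]
    [NormedAddCommGroup Z] [NormedSpace ℝ Z] (A₀ : V → Z) (h : ∀ x y, A₀ (x + y) = A₀ x + A₀ y)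
    (D : ℝ) (hD : ∀ x, ‖A₀ x‖ ≤ D * ‖x‖) : ∃ A : V →L[ℝ] Z, ∀ x, A x = A₀ x := by
  let Ah : V →+ Z := AddMonoidHom.mk' A₀ h
  have hcont : Continuous Ah := by
    have : LipschitzWith (Real.toNNReal D) Ah := by
      apply LipschitzWith.of_dist_le_mul
      intro x y
      rw [dist_eq_norm, ← map_sub, dist_eq_norm]
      refine (hD (x - y)).trans ?_
      gcongr
      exact Real.le_coe_toNNReal D
    exact this.continuous
  exact ⟨Ah.toRealLinearMap hcont, fun x => rfl⟩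

/-- Neumann series. -/
lemma exists_right_inverse {Q : Type*} [NormedAddCommGroup Q] [NormedSpace ℝ Q] [CompleteSpace Q]
    (C : Q →L[ℝ] Q) (θ : ℝ) (hθ0 : 0 ≤ θ) (hθ : θ < 1) (h : ∀ q, ‖q - C q‖ ≤ θ * ‖q‖) :
    ∃ U : Q →L[ℝ] Q, ∀ q, C (U q) = q := by
  have hc : ‖(1 : Q →L[ℝ] Q) - C‖ < 1 :=
    lt_of_le_of_lt (ContinuousLinearMap.opNorm_le_bound _ hθ0 fun q => h q) hθ
  let u := Units.oneSub _ hc
  have hu : u.val = C := by
    rw [Units.val_oneSub]
    abel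
  refine ⟨u⁻¹.val, fun y => ?_⟩
  have h2 : u.val * u⁻¹.val = 1 := Units.mul_inv u
  rw [hu] at h2
  exact DFunLike.congr_fun h2 y

section Limit

variable {V W : Type*} [NormedAddCommGroup V] [NormedSpace ℝ V]
  [NormedAddCommGroup W] [NormedSpace ℝ W]

/-- The weak* ultrafilter limit, in the bidual, of an asymptotically additive sequence. -/
theorem exists_bidual_limit (Φ : ℕ → V → W) (L : ℝ≥0) (D : ℝ)
    (hL : ∀ m, LipschitzWith L (Φ m)) (h0 : ∀ m, Φ m 0 = 0)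
    (hD : ∀ x, ∀ᶠ m in atTop, ‖Φ m x‖ ≤ D * ‖x‖)
    (hadd : ∀ v v', Tendsto (fun m => Φ m (v + v') - Φ m v - Φ m v') atTop (𝓝 0)) :
    ∃ A : V →L[ℝ] StrongDual ℝ (StrongDual ℝ W), (∀ x, ‖A x‖ ≤ D * ‖x‖) ∧
      ∀ x (f : StrongDual ℝ W),
        Tendsto (fun m => f (Φ m x)) (hyperfilter ℕ) (𝓝 (A x f)) := by
  let 𝒰 : Ultrafilter ℕ := hyperfilter ℕ
  have hle : (𝒰 : Filter ℕ) ≤ atTop := Nat.hyperfilter_le_atTop
  have hbd : ∀ m x, ‖Φ m x‖ ≤ L * ‖x‖ := by
    intro m x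
    have := (hL m).dist_le_mul x 0
    rwa [dist_eq_norm, dist_eq_norm, h0, sub_zero, sub_zero] at this
  have hex : ∀ x (f : StrongDual ℝ W), ∃ a : ℝ, Tendsto (fun m => f (Φ m x)) 𝒰 (𝓝 a) := by
    intro x f
    have hc : IsCompact (Metric.closedBall (0 : ℝ) (‖f‖ * (L * ‖x‖))) := isCompact_closedBall _ _
    obtain ⟨a, _, ha⟩ := hc.ultrafilter_le_nhds (𝒰.map fun m => f (Φ m x)) (by
      rw [le_principal_iff, Ultrafilter.mem_coe, Ultrafilter.mem_map]
      refine Eventually.of_forall fun m => ?_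
      refine mem_closedBall_zero_iff.2 ((f.le_opNorm _).trans ?_)
      gcongr
      exact hbd m x)
    exact ⟨a, ha⟩
  choose a ha using hex
  have hDx : ∀ x, ∀ᶠ m in (𝒰 : Filter ℕ), ‖Φ m x‖ ≤ D * ‖x‖ := fun x => hle (hD x)
  have habs : ∀ x f, ‖a x f‖ ≤ D * ‖x‖ * ‖f‖ := by
    intro x f
    refine le_of_tendsto (ha x f).norm ((hDx x).mono fun m hm => ?_)
    calc ‖f (Φ m x)‖ ≤ ‖f‖ * ‖Φ m x‖ := f.le_opNorm _
      _ ≤ ‖f‖ * (D * ‖x‖) := by gcongr
      _ = D * ‖x‖ * ‖f‖ := by ring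
  have hDnn : ∀ x : V, 0 ≤ D * ‖x‖ := fun x => by
    obtain ⟨m, hm⟩ := (hDx x).exists
    exact (norm_nonneg _).trans hm
  let A₀ : V → StrongDual ℝ (StrongDual ℝ W) := fun x => LinearMap.mkContinuous
    { toFun := a x
      map_add' := fun f g => tendsto_nhds_unique (ha x (f + g)) ((ha x f).add (ha x g))
      map_smul' := fun c f => tendsto_nhds_unique (ha x (c • f)) ((ha x f).const_smul c) }
    (D * ‖x‖) (habs x)
  have hA₀ : ∀ x, ‖A₀ x‖ ≤ D * ‖x‖ := fun x => LinearMap.mkContinuous_norm_le _ (hDnn x) _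
  have hA₀f : ∀ x f, A₀ x f = a x f := fun _ _ => rfl
  have haddA : ∀ x y, A₀ (x + y) = A₀ x + A₀ y := by
    intro x y
    ext f
    change A₀ (x + y) f = A₀ x f + A₀ y f
    rw [hA₀f, hA₀f, hA₀f]
    have h1 : Tendsto (fun m => f (Φ m (x + y) - Φ m x - Φ m y)) 𝒰 (𝓝 (f 0)) :=
      (f.continuous.tendsto _).comp ((hadd x y).mono_left hle)
    have h2 : Tendsto (fun m => f (Φ m (x + y) - Φ m x - Φ m y)) 𝒰
        (𝓝 (a (x + y) f - a x f - a y f)) := by
      simpa only [map_sub] using ((ha (x + y) f).sub (ha x f)).sub (ha y f)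
    have h3 := tendsto_nhds_unique h2 h1
    rw [map_zero, sub_sub, sub_eq_zero] at h3
    exact h3
  obtain ⟨A, hA⟩ := clm_of_additive A₀ haddA D hA₀
  refine ⟨A, fun x => ?_, fun x f => ?_⟩
  · rw [hA]
    exact hA₀ x
  · rw [hA]
    exact ha x f

end Limit

section Contraction

variable {X : Type*} [NormedAddCommGroup X] [NormedSpace ℝ X]

/-- If a bounded operator fixes the closed subspace `M` pointwise and contracts the distances to
`M`, then `M` is complemented. -/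
theorem proj_of_contraction [CompleteSpace X] (M : Submodule ℝ X) (hMc : IsClosed (M : Set X))
    (S : X →L[ℝ] X) (hS : ∀ m ∈ M, S m = m) (θ : ℝ) (hθ0 : 0 ≤ θ) (hθ : θ < 1)
    (h : ∀ w, ‖M.mkQL (S w)‖ ≤ θ * ‖M.mkQL w‖) :
    ∃ P : X →L[ℝ] M, ∀ y : M, P y = y := by
  have hMc' : IsClosed (M : Set X) := hMc
  -- the operator `1 - S` factors through the quotient
  let R : X →L[ℝ] X := ContinuousLinearMap.id ℝ X - S
  have hR : M ≤ R.ker := by
    intro m hm
    simp [R, hS m hm]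
  let R' : (X ⧸ M) →L[ℝ] X := M.liftQL R hR
  have hR' : ∀ w, R' (M.mkQL w) = w - S w := by
    intro w
    simp [R', R]
  obtain ⟨U, hU⟩ := exists_right_inverse (M.mkQL.comp R') θ hθ0 hθ (fun q => by
    obtain ⟨w, rfl⟩ : ∃ w, M.mkQL w = q := M.mkQ_surjective q
    have e : M.mkQL w - (M.mkQL.comp R') (M.mkQL w) = M.mkQL (S w) := by
      rw [ContinuousLinearMap.comp_apply, hR', map_sub]
      abel
    rw [e]
    exact h w)
  have hsec : ∀ q, M.mkQL (R' (U q)) = q := hU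
  let Q : X →L[ℝ] X := ContinuousLinearMap.id ℝ X - (R'.comp U).comp M.mkQL
  have hQ : ∀ x, Q x = x - R' (U (M.mkQL x)) := fun x => rfl
  have hQM : ∀ x, Q x ∈ M := by
    intro x
    have : M.mkQL (Q x) = 0 := by
      rw [hQ, map_sub, hsec, sub_self]
    simpa using this
  refine ⟨Q.codRestrict M hQM, fun y => ?_⟩
  apply Subtype.ext
  change Q y = y
  have h0 : M.mkQL (y : X) = 0 := by simp
  rw [hQ, h0, map_zero, map_zero, sub_zero]

/-- A closed subspace of a `κ`-split space that admits asymptotically additive Lipschitz maps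
with asymptotic norm below `1 / κ` converging to the identity on it is complemented. -/
theorem exists_projection_split [CompleteSpace X] {κ : ℝ} (hκ : 0 ≤ κ) (hX : Split κ X)
    (M : Submodule ℝ X) (hMc : IsClosed (M : Set X))
    (Φ : ℕ → X → X) (L' : ℝ≥0) (D : ℝ) (hD0 : 0 ≤ D) (hD2 : D * κ < 1)
    (hL : ∀ m, LipschitzWith L' (Φ m)) (h0 : ∀ m, Φ m 0 = 0)
    (hD : ∀ x, ∀ᶠ m in atTop, ‖Φ m x‖ ≤ D * ‖x‖)
    (hadd : ∀ v v', Tendsto (fun m => Φ m (v + v') - Φ m v - Φ m v') atTop (𝓝 0))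
    (hM : ∀ m v, Φ m v ∈ M) (hid : ∀ y ∈ M, Tendsto (fun m => Φ m y) atTop (𝓝 y)) :
    ∃ P : X →L[ℝ] M, ∀ y : M, P y = y := by
  obtain ⟨P, hPJ, ⟨B, hB⟩, hP⟩ := hX
  obtain ⟨A, hAD, hA⟩ := exists_bidual_limit Φ L' D hL h0 hD hadd
  have hle : (hyperfilter ℕ : Filter ℕ) ≤ atTop := Nat.hyperfilter_le_atTop
  set J := NormedSpace.inclusionInDoubleDual ℝ X with hJ
  have hAid : ∀ y ∈ M, A y = J y := by
    intro y hy
    ext f
    have h1 : Tendsto (fun m => f (Φ m y)) (hyperfilter ℕ) (𝓝 (f y)) :=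
      (f.continuous.tendsto _).comp ((hid y hy).mono_left hle)
    rw [hJ, NormedSpace.dual_def]
    exact tendsto_nhds_unique (hA y f) h1
  have hAM : ∀ x (f : StrongDual ℝ X), (∀ m ∈ M, f m = 0) → A x f = 0 := by
    intro x f hf
    have h1 : Tendsto (fun m => f (Φ m x)) (hyperfilter ℕ) (𝓝 0) := by
      simp only [hf _ (hM _ _)]
      exact tendsto_const_nhds
    exact tendsto_nhds_unique (hA x f) h1
  obtain ⟨S, hS⟩ := clm_of_additive (fun x => P (A x)) (fun x y => by rw [map_add, map_add])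
    (|B| * D) (fun x => by
      calc ‖P (A x)‖ ≤ B * ‖A x‖ := hB _
        _ ≤ |B| * (D * ‖x‖) := by
            gcongr
            · exact le_abs_self B
            · exact hAD x
        _ = |B| * D * ‖x‖ := by ring)
  have hSM : ∀ m ∈ M, S m = m := by
    intro m hm
    rw [hS, hAid m hm, hPJ]
  have hMc' : IsClosed (M : Set X) := hMc
  have key : ∀ w, ‖M.mkQL (S w)‖ ≤ D * κ * ‖M.mkQL w‖ := by
    intro w
    -- by duality
    have h1 : ‖M.mkQL (S w)‖ ≤ ‖A w - J (S w)‖ := by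
      obtain ⟨g, hg1, hg2⟩ := exists_dual_vector'' ℝ (M.mkQL (S w))
      let f : StrongDual ℝ X := g.comp M.mkQL
      have hf1 : ‖f‖ ≤ 1 := by
        refine ContinuousLinearMap.opNorm_le_bound _ zero_le_one fun x => ?_
        calc ‖g (M.mkQL x)‖ ≤ ‖g‖ * ‖M.mkQL x‖ := g.le_opNorm _
          _ ≤ 1 * ‖x‖ := by
              gcongr
              exact Submodule.Quotient.norm_mk_le M x
      have hfM : ∀ m ∈ M, f m = 0 := by
        intro m hm
        change g (M.mkQL m) = 0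
        have : M.mkQL m = 0 := by simpa using hm
        rw [this, map_zero]
      have h2 : (A w - J (S w)) f = - ‖M.mkQL (S w)‖ := by
        change A w f - J (S w) f = _
        rw [hAM w f hfM, hJ, NormedSpace.dual_def, zero_sub]
        congr 1
      have h3 : ‖(A w - J (S w)) f‖ ≤ ‖A w - J (S w)‖ * ‖f‖ :=
        ContinuousLinearMap.le_opNorm _ _
      rw [h2, norm_neg, norm_norm] at h3
      refine h3.trans ?_
      calc ‖A w - J (S w)‖ * ‖f‖ ≤ ‖A w - J (S w)‖ * 1 := by gcongr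
        _ = _ := mul_one _
    have h4 : ∀ m ∈ M, ‖M.mkQL (S w)‖ ≤ D * κ * ‖w - m‖ := by
      intro m hm
      have h5 := hP (A (w - m))
      have h6 := hAD (w - m)
      have e1 : P (A (w - m)) = S w - m := by
        rw [map_sub, map_sub, hAid m hm, hPJ, hS]
      have e2 : A (w - m) - J (P (A (w - m))) = A w - J (S w) := by
        rw [e1, map_sub, map_sub, hAid m hm]
        abel
      rw [e2, e1] at h5
      have h7 : ‖M.mkQL (S w)‖ ≤ ‖S w - m‖ := by
        have : M.mkQL (S w) = M.mkQL (S w - m) := by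
          have h0 : M.mkQL m = 0 := by simpa using hm
          rw [map_sub, h0, sub_zero]
        rw [this]
        exact Submodule.Quotient.norm_mk_le M _
      calc ‖M.mkQL (S w)‖ ≤ min ‖S w - m‖ ‖A w - J (S w)‖ := le_min h7 h1
        _ ≤ κ * ‖A (w - m)‖ := h5
        _ ≤ κ * (D * ‖w - m‖) := by gcongr
        _ = D * κ * ‖w - m‖ := by ring
    refine le_of_forall_pos_le_add fun ε hε => ?_
    obtain ⟨x, hx1, hx2⟩ := Submodule.Quotient.norm_mk_lt (M.mkQL w) hε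
    have hx3 : w - x ∈ M := by
      rw [← Submodule.Quotient.eq]
      exact hx1.symm
    have h9 := h4 (w - x) hx3
    rw [sub_sub_cancel] at h9
    have hDκ : 0 ≤ D * κ := by positivity
    calc ‖M.mkQL (S w)‖ ≤ D * κ * ‖x‖ := h9
      _ ≤ D * κ * (‖M.mkQL w‖ + ε) := by gcongr
      _ = D * κ * ‖M.mkQL w‖ + D * κ * ε := by ring
      _ ≤ D * κ * ‖M.mkQL w‖ + 1 * ε := by gcongr
      _ = _ := by ring
  exact proj_of_contraction M hMc S hSM (D * κ) (by positivity) hD2 key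

end Contraction

end Vale.Agent.P124.H440
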