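import Mathlib

open Filter Topology MeasureTheory
open scoped NNReal ENNReal

namespace Vale.Agent.P124.H440

/-- Every Lipschitz curve in `X` is differentiable almost everywhere. For Banach spaces this is
equivalent to the Radon-Nikodym property. -/
def CurveDiff (X : Type*) [NormedAddCommGroup X] [NormedSpace ℝ X] : Prop :=
  ∀ (γ : ℝ → X) (L : ℝ≥0), LipschitzWith L γ → ∀ᵐ s : ℝ, DifferentiableAt ℝ γ s

/-- A separable normed space has a countable separating set of functionals of norm at most one;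
in fact it is norming. -/
lemma exists_norming_seq (X : Type*) [NormedAddCommGroup X] [NormedSpace ℝ X]
    [TopologicalSpace.SeparableSpace X] :
    ∃ f : ℕ → StrongDual ℝ X, (∀ n, ‖f n‖ ≤ 1) ∧ ∀ x, ∀ ε > 0, ∃ n, ‖x‖ - ε ≤ f n x := by
  let d : ℕ → X := TopologicalSpace.denseSeq X
  have hd : DenseRange d := TopologicalSpace.denseRange_denseSeq X
  choose f hf1 hf2 using fun n => exists_dual_vector'' ℝ (d n)
  refine ⟨f, hf1, fun x ε hε => ?_⟩
  obtain ⟨n, hn⟩ := hd.exists_dist_lt x (ε := ε / 2) (by positivity)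
  refine ⟨n, ?_⟩
  rw [dist_eq_norm] at hn
  have h1 : ‖x‖ ≤ ‖d n‖ + ‖x - d n‖ := by
    calc ‖x‖ = ‖d n + (x - d n)‖ := by congr 1; abel
      _ ≤ _ := norm_add_le _ _
  have h2 : f n (d n) = ‖d n‖ := hf2 n
  have h3 : ‖f n (x - d n)‖ ≤ 1 * ‖x - d n‖ := (f n).le_of_opNorm_le (hf1 n) _
  rw [map_sub, h2, Real.norm_eq_abs] at h3
  have h4 := (abs_le.1 h3).1
  linarith

variable {X : Type*} [NormedAddCommGroup X] [NormedSpace ℝ X] [CompleteSpace X]

/-- Lipschitz maps from a finite-dimensional space into `X` are a.e. line differentiable in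
every fixed direction. -/
theorem ae_lineDifferentiableAt_of_curve (hX : CurveDiff X) {n : ℕ} {G : (Fin n → ℝ) → X}
    {L : ℝ≥0} (hG : LipschitzWith L G) (v : Fin n → ℝ) :
    ∀ᵐ z : Fin n → ℝ, LineDifferentiableAt ℝ G z v := by
  let T : ℝ →L[ℝ] (Fin n → ℝ) := ContinuousLinearMap.smulRight (1 : ℝ →L[ℝ] ℝ) v
  suffices A : ∀ p, ∀ᵐ (t : ℝ) ∂volume, LineDifferentiableAt ℝ G (p + t • v) v from
    ae_mem_of_ae_add_linearMap_mem T.toLinearMap volume volume
      (measurableSet_lineDifferentiableAt hG.continuous) A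
  intro p
  have : ∀ᵐ (s : ℝ), DifferentiableAt ℝ (fun t ↦ G (p + t • v)) s :=
    hX _ _ (hG.comp ((LipschitzWith.const p).add T.lipschitz))
  filter_upwards [this] with s hs
  have h's : DifferentiableAt ℝ (fun t ↦ G (p + t • v)) (s + 0) := by simpa using hs
  have : DifferentiableAt ℝ (fun t ↦ s + t) 0 := differentiableAt_id.const_add _
  simp only [LineDifferentiableAt]
  convert! h's.comp 0 this with _ t
  simp only [add_assoc, Function.comp_apply, add_smul]

/-- Rademacher's theorem for maps from finite-dimensional spaces into a separable space in which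
Lipschitz curves are a.e. differentiable. -/
theorem fd_ae_differentiable_of_curve [TopologicalSpace.SeparableSpace X] (hX : CurveDiff X)
    (n : ℕ) (G : (Fin n → ℝ) → X) (L : ℝ≥0)
    (hG : LipschitzWith L G) : ∀ᵐ z : Fin n → ℝ, DifferentiableAt ℝ G z := by
  obtain ⟨f, hf1, hf2⟩ := exists_norming_seq X
  have hsep : ∀ x y : X, (∀ k, f k x = f k y) → x = y := by
    intro x y h
    rw [← sub_eq_zero, ← norm_le_zero_iff]
    refine le_of_forall_pos_le_add fun ε hε => ?_
    obtain ⟨k, hk⟩ := hf2 (x - y) ε hε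
    rw [map_sub, h k, sub_self] at hk
    linarith
  obtain ⟨s, s_count, s_dense⟩ : ∃ (s : Set (Fin n → ℝ)), s.Countable ∧ Dense s :=
    TopologicalSpace.exists_countable_dense _
  have hs : Metric.sphere (0 : Fin n → ℝ) 1 ⊆ closure s := by
    rw [s_dense.closure_eq]; exact Set.subset_univ _
  have I1 : ∀ᵐ z : Fin n → ℝ, ∀ v ∈ s, LineDifferentiableAt ℝ G z v :=
    (ae_ball_iff s_count).2 fun v _ => ae_lineDifferentiableAt_of_curve hX hG v
  have I2 : ∀ᵐ z : Fin n → ℝ, ∀ i : Fin n, LineDifferentiableAt ℝ G z (Pi.single i 1) :=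
    ae_all_iff.2 fun i => ae_lineDifferentiableAt_of_curve hX hG _
  have I3 : ∀ᵐ z : Fin n → ℝ, ∀ k, DifferentiableAt ℝ (fun y => f k (G y)) z :=
    ae_all_iff.2 fun k => ((f k).lipschitz.comp hG).ae_differentiableAt
  filter_upwards [I1, I2, I3] with z h1 h2 h3
  let B : (Fin n → ℝ) →ₗ[ℝ] X :=
    { toFun := fun v => ∑ i, v i • lineDeriv ℝ G z (Pi.single i 1)
      map_add' := by
        intro v w
        simp only [Pi.add_apply, add_smul, Finset.sum_add_distrib]
      map_smul' := by
        intro c v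
        simp only [Pi.smul_apply, smul_eq_mul, mul_smul, Finset.smul_sum, RingHom.id_apply] }
  let D : (Fin n → ℝ) →L[ℝ] X := LinearMap.toContinuousLinearMap B
  have hcoord : ∀ (v : Fin n → ℝ), LineDifferentiableAt ℝ G z v → ∀ k,
      f k (lineDeriv ℝ G z v) = fderiv ℝ (fun y => f k (G y)) z v := by
    intro v hv k
    have e1 : HasLineDerivAt ℝ (fun y => f k (G y)) (f k (lineDeriv ℝ G z v)) z v := by
      have := hv.hasLineDerivAt
      unfold HasLineDerivAt at this ⊢
      exact (f k).hasFDerivAt.comp_hasDerivAt (0 : ℝ) this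
    have e2 : HasLineDerivAt ℝ (fun y => f k (G y)) (fderiv ℝ (fun y => f k (G y)) z v) z v :=
      (h3 k).hasFDerivAt.hasLineDerivAt v
    exact e1.unique e2
  have key : ∀ v ∈ s, HasLineDerivAt ℝ G (D v) z v := by
    intro v hv
    have e : D v = lineDeriv ℝ G z v := by
      apply hsep
      intro k
      have hD : f k (D v) = ∑ i, v i • f k (lineDeriv ℝ G z (Pi.single i 1)) := by
        change f k (∑ i, v i • lineDeriv ℝ G z (Pi.single i 1)) = _
        rw [map_sum]
        refine Finset.sum_congr rfl fun i _ => ?_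
        rw [map_smul]
      rw [hD, hcoord v (h1 v hv) k]
      have e3 : ∀ i, f k (lineDeriv ℝ G z (Pi.single i 1)) =
          fderiv ℝ (fun y => f k (G y)) z (Pi.single i 1) := fun i => hcoord _ (h2 i) k
      simp only [e3]
      have hv2 : v = ∑ i, v i • (Pi.single i (1 : ℝ) : Fin n → ℝ) := by
        funext j
        rw [Finset.sum_apply]
        simp [Pi.single_apply]
      conv_rhs => rw [hv2]
      rw [map_sum]
      refine Finset.sum_congr rfl fun i _ => ?_
      rw [map_smul]
    rw [e]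
    exact (h1 v hv).hasLineDerivAt
  exact (hG.hasFDerivAt_of_hasLineDerivAt_of_closure hs key).differentiableAt

end Vale.Agent.P124.H440
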