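import Mathlib
import Vale.Agent.P124.H440.Rad

open Filter Topology MeasureTheory Set
open scoped NNReal ENNReal

namespace Vale.Agent.P124.H440

section Abstract

variable {X : Type*} [NormedAddCommGroup X] [NormedSpace ℝ X]

/-- The supremum of the derivatives of countably many coordinates of a curve. -/
noncomputable def wsup (φ : ℕ → StrongDual ℝ X) (γ : ℝ → X) (a : X) (t : ℝ) : ℝ :=
  ⨆ n, |deriv (fun s => φ n (γ s)) t - φ n a|

lemma lip_coord {φ : ℕ → StrongDual ℝ X} (hφ : ∀ n, ‖φ n‖ ≤ 1) {γ : ℝ → X} {L : ℝ≥0}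
    (hγ : LipschitzWith L γ) (n : ℕ) : LipschitzWith L (fun s => φ n (γ s)) := by
  refine LipschitzWith.of_dist_le_mul fun x y => ?_
  rw [dist_eq_norm, ← map_sub]
  refine ((φ n).le_of_opNorm_le (hφ n) _).trans ?_
  rw [one_mul, ← dist_eq_norm]
  exact hγ.dist_le_mul x y

lemma wsup_term_le {φ : ℕ → StrongDual ℝ X} (hφ : ∀ n, ‖φ n‖ ≤ 1) {γ : ℝ → X} {L : ℝ≥0}
    (hγ : LipschitzWith L γ) (a : X) (t : ℝ) (n : ℕ) :
    |deriv (fun s => φ n (γ s)) t - φ n a| ≤ L + ‖a‖ := by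
  have h1 : ‖deriv (fun s => φ n (γ s)) t‖ ≤ L := norm_deriv_le_of_lipschitz (lip_coord hφ hγ n)
  have h2 : ‖φ n a‖ ≤ 1 * ‖a‖ := (φ n).le_of_opNorm_le (hφ n) _
  have h3 : ‖deriv (fun s => φ n (γ s)) t - φ n a‖
      ≤ ‖deriv (fun s => φ n (γ s)) t‖ + ‖φ n a‖ := norm_sub_le _ _
  rw [← Real.norm_eq_abs]
  linarith

lemma wsup_bdd {φ : ℕ → StrongDual ℝ X} (hφ : ∀ n, ‖φ n‖ ≤ 1) {γ : ℝ → X} {L : ℝ≥0}
    (hγ : LipschitzWith L γ) (a : X) (t : ℝ) :
    BddAbove (Set.range fun n => |deriv (fun s => φ n (γ s)) t - φ n a|) :=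
  ⟨L + ‖a‖, by rintro _ ⟨n, rfl⟩; exact wsup_term_le hφ hγ a t n⟩

lemma wsup_nonneg (φ : ℕ → StrongDual ℝ X) (γ : ℝ → X) (a : X) (t : ℝ) : 0 ≤ wsup φ γ a t :=
  Real.iSup_nonneg fun _ => abs_nonneg _

lemma wsup_le {φ : ℕ → StrongDual ℝ X} (hφ : ∀ n, ‖φ n‖ ≤ 1) {γ : ℝ → X} {L : ℝ≥0}
    (hγ : LipschitzWith L γ) (a : X) (t : ℝ) : wsup φ γ a t ≤ L + ‖a‖ :=
  ciSup_le fun n => wsup_term_le hφ hγ a t n

lemma measurable_wsup (φ : ℕ → StrongDual ℝ X) (γ : ℝ → X) (a : X) :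
    Measurable (wsup φ γ a) := by
  refine Measurable.iSup fun n => ?_
  exact ((measurable_deriv _).sub_const _).abs

lemma locallyIntegrable_wsup {φ : ℕ → StrongDual ℝ X} (hφ : ∀ n, ‖φ n‖ ≤ 1) {γ : ℝ → X} {L : ℝ≥0}
    (hγ : LipschitzWith L γ) (a : X) : LocallyIntegrable (wsup φ γ a) volume := by
  have h : MemLp (wsup φ γ a) ∞ volume := by
    refine memLp_top_of_bound (measurable_wsup φ γ a).aestronglyMeasurable (L + ‖a‖) ?_
    refine Eventually.of_forall fun t => ?_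
    rw [Real.norm_of_nonneg (wsup_nonneg _ _ _ _)]
    exact wsup_le hφ hγ a t
  exact h.locallyIntegrable le_top

lemma intervalIntegrable_wsup {φ : ℕ → StrongDual ℝ X} (hφ : ∀ n, ‖φ n‖ ≤ 1) {γ : ℝ → X}
    {L : ℝ≥0} (hγ : LipschitzWith L γ) (a : X) (s t : ℝ) :
    IntervalIntegrable (wsup φ γ a) volume s t :=
  intervalIntegrable_iff.mpr
      (((locallyIntegrable_wsup hφ hγ a).integrableOn_isCompact isCompact_uIcc).mono_set
        Set.uIoc_subset_uIcc)

/-- Increments of a Lipschitz curve are controlled by the integral of `wsup`. -/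
lemma norm_incr_le {φ : ℕ → StrongDual ℝ X} (hφ : ∀ n, ‖φ n‖ ≤ 1)
    (hφ2 : ∀ x, ∀ ε > 0, ∃ n, ‖x‖ - ε ≤ |φ n x|) {γ : ℝ → X}
    {L : ℝ≥0} (hγ : LipschitzWith L γ) (a : X) (s t : ℝ) :
    ‖γ t - γ s - (t - s) • a‖ ≤ |∫ u in s..t, wsup φ γ a u| := by
  refine le_of_forall_pos_le_add fun ε hε => ?_
  obtain ⟨n, hn⟩ := hφ2 (γ t - γ s - (t - s) • a) ε hε
  suffices h : |φ n (γ t - γ s - (t - s) • a)| ≤ |∫ u in s..t, wsup φ γ a u| by linarith
  have hac : AbsolutelyContinuousOnInterval (fun s => φ n (γ s)) s t :=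
    ((lip_coord hφ hγ n).lipschitzOnWith (s := Set.uIcc s t)).absolutelyContinuousOnInterval
  have e : φ n (γ t - γ s - (t - s) • a) =
      ∫ u in s..t, (deriv (fun s => φ n (γ s)) u - φ n a) := by
    rw [intervalIntegral.integral_sub hac.intervalIntegrable_deriv (by simp),
      hac.integral_deriv_eq_sub, intervalIntegral.integral_const]
    simp
  rw [e]
  rw [← Real.norm_eq_abs]
  refine intervalIntegral.norm_integral_le_abs_of_norm_le (Eventually.of_forall fun u => ?_)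
    (intervalIntegrable_wsup hφ hγ a s t)
  rw [Real.norm_eq_abs]
  exact le_ciSup (wsup_bdd hφ hγ a u) n

/-- **Gelfand.** If bounded sequences in the separable space `X` have ultrafilter limits with
respect to a countable norming family of functionals, then Lipschitz curves in `X` are
differentiable almost everywhere. -/
theorem curveDiff_of_compact [TopologicalSpace.SeparableSpace X] (φ : ℕ → StrongDual ℝ X)
    (hφ : ∀ n, ‖φ n‖ ≤ 1) (hφ2 : ∀ x, ∀ ε > 0, ∃ n, ‖x‖ - ε ≤ |φ n x|)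
    (hc : ∀ (x : ℕ → X) (C : ℝ), (∀ m, ‖x m‖ ≤ C) →
      ∃ ψ : X, ∀ n, Tendsto (fun m => φ n (x m)) (hyperfilter ℕ) (𝓝 (φ n ψ))) :
    CurveDiff X := by
  intro γ L hγ
  let d : ℕ → X := TopologicalSpace.denseSeq X
  have hd : DenseRange d := TopologicalSpace.denseRange_denseSeq X
  have I1 : ∀ᵐ s : ℝ, ∀ n, DifferentiableAt ℝ (fun s => φ n (γ s)) s :=
    ae_all_iff.2 fun n => (lip_coord hφ hγ n).ae_differentiableAt_real
  have I2 : ∀ᵐ s : ℝ, ∀ k c, HasDerivAt (fun x => ∫ t in c..x, wsup φ γ (d k) t)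
      (wsup φ γ (d k) s) s :=
    ae_all_iff.2 fun k => LocallyIntegrable.ae_hasDerivAt_integral
      (locallyIntegrable_wsup hφ hγ (d k))
  filter_upwards [I1, I2] with s h1 h2
  -- the candidate derivative
  let q : ℕ → X := fun m => ((m : ℝ) + 1) • (γ (s + ((m : ℝ) + 1)⁻¹) - γ s)
  have hq : ∀ m, ‖q m‖ ≤ L := by
    intro m
    have hm : (0 : ℝ) < (m : ℝ) + 1 := by positivity
    have h3 := hγ.dist_le_mul (s + ((m : ℝ) + 1)⁻¹) s
    rw [dist_eq_norm, dist_eq_norm, add_sub_cancel_left, Real.norm_of_nonneg (by positivity)] at h3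
    change ‖((m : ℝ) + 1) • (γ (s + ((m : ℝ) + 1)⁻¹) - γ s)‖ ≤ L
    rw [norm_smul, Real.norm_of_nonneg hm.le]
    calc ((m : ℝ) + 1) * ‖γ (s + ((m : ℝ) + 1)⁻¹) - γ s‖
        ≤ ((m : ℝ) + 1) * (L * ((m : ℝ) + 1)⁻¹) := by gcongr
      _ = L := by field_simp
  obtain ⟨ψ, hψ⟩ := hc q L hq
  have hψd : ∀ n, φ n ψ = deriv (fun s => φ n (γ s)) s := by
    intro n
    have h3 : Tendsto (fun t : ℝ => t⁻¹ • (φ n (γ (s + t)) - φ n (γ s))) (𝓝[≠] 0)
        (𝓝 (deriv (fun s => φ n (γ s)) s)) := (h1 n).hasDerivAt.tendsto_slope_zero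
    have h4 : Tendsto (fun m : ℕ => ((m : ℝ) + 1)⁻¹) atTop (𝓝[≠] 0) := by
      refine tendsto_nhdsWithin_iff.2 ⟨?_, Eventually.of_forall fun m => ?_⟩
      · simpa using tendsto_one_div_add_atTop_nhds_zero_nat (𝕜 := ℝ)
      · have : (0 : ℝ) < (m : ℝ) + 1 := by positivity
        exact (inv_pos.2 this).ne'
    have h5 := (h3.comp h4).mono_left Nat.hyperfilter_le_atTop
    refine tendsto_nhds_unique (hψ n) (h5.congr fun m => ?_)
    simp only [Function.comp_apply, q, map_smul, map_sub, inv_inv]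
  have hwψ : ∀ a : X, wsup φ γ a s ≤ ‖ψ - a‖ := by
    intro a
    refine ciSup_le fun n => ?_
    rw [← hψd n, ← map_sub, ← Real.norm_eq_abs]
    refine ((φ n).le_of_opNorm_le (hφ n) _).trans_eq (one_mul _)
  suffices h : HasDerivAt γ ψ s from h.differentiableAt
  rw [hasDerivAt_iff_isLittleO, Asymptotics.isLittleO_iff]
  intro ε hε
  obtain ⟨k, hk⟩ := hd.exists_dist_lt ψ (ε := ε / 4) (by positivity)
  rw [dist_eq_norm] at hk
  have hw : wsup φ γ (d k) s ≤ ε / 4 := (hwψ (d k)).trans hk.le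
  have h6 := (hasDerivAt_iff_isLittleO.1 (h2 k s))
  rw [Asymptotics.isLittleO_iff] at h6
  filter_upwards [h6 (c := ε / 4) (by positivity)] with t ht
  rw [intervalIntegral.integral_same, sub_zero, smul_eq_mul] at ht
  have h7 : |∫ u in s..t, wsup φ γ (d k) u| ≤ ε / 2 * |t - s| := by
    have h8 : |∫ u in s..t, wsup φ γ (d k) u| ≤
        ‖(∫ u in s..t, wsup φ γ (d k) u) - (t - s) * wsup φ γ (d k) s‖ +
        |(t - s) * wsup φ γ (d k) s| := by
      rw [Real.norm_eq_abs]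
      calc |∫ u in s..t, wsup φ γ (d k) u|
          = |((∫ u in s..t, wsup φ γ (d k) u) - (t - s) * wsup φ γ (d k) s) +
            (t - s) * wsup φ γ (d k) s| := by congr 1; ring
        _ ≤ _ := abs_add_le _ _
    rw [abs_mul, abs_of_nonneg (wsup_nonneg _ _ _ _)] at h8
    rw [Real.norm_eq_abs (t - s)] at ht
    have h9 : |t - s| * wsup φ γ (d k) s ≤ |t - s| * (ε / 4) := by gcongr
    linarith
  have h10 := norm_incr_le hφ hφ2 hγ (d k) s t
  rw [Real.norm_eq_abs (t - s)]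
  calc ‖γ t - γ s - (t - s) • ψ‖
      = ‖(γ t - γ s - (t - s) • d k) - (t - s) • (ψ - d k)‖ := by
        congr 1
        rw [smul_sub]
        abel
    _ ≤ ‖γ t - γ s - (t - s) • d k‖ + ‖(t - s) • (ψ - d k)‖ := norm_sub_le _ _
    _ ≤ ε / 2 * |t - s| + |t - s| * (ε / 4) := by
        rw [norm_smul, Real.norm_eq_abs]
        gcongr
        exact h10.trans h7
    _ ≤ ε * |t - s| := by
        have : 0 ≤ |t - s| := abs_nonneg _
        nlinarith

end Abstract

section Dual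

/-- Bounded sequences in a dual space have weak* ultrafilter limits. -/
lemma exists_weakstar_limit {Z : Type*} [NormedAddCommGroup Z] [NormedSpace ℝ Z]
    (x : ℕ → StrongDual ℝ Z) (C : ℝ) (hx : ∀ m, ‖x m‖ ≤ C) :
    ∃ ψ : StrongDual ℝ Z, ‖ψ‖ ≤ C ∧
      ∀ z, Tendsto (fun m => x m z) (hyperfilter ℕ) (𝓝 (ψ z)) := by
  let 𝒰 : Ultrafilter ℕ := hyperfilter ℕ
  have hC : 0 ≤ C := (norm_nonneg _).trans (hx 0)
  have hb : ∀ z m, ‖x m z‖ ≤ C * ‖z‖ := fun z m => (x m).le_of_opNorm_le (hx m) z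
  have hex : ∀ z, ∃ a : ℝ, Tendsto (fun m => x m z) 𝒰 (𝓝 a) := by
    intro z
    have hc : IsCompact (Metric.closedBall (0 : ℝ) (C * ‖z‖)) := isCompact_closedBall _ _
    obtain ⟨a, _, ha⟩ := hc.ultrafilter_le_nhds (𝒰.map fun m => x m z) (by
      rw [le_principal_iff, Ultrafilter.mem_coe, Ultrafilter.mem_map]
      refine Eventually.of_forall fun m => ?_
      exact mem_closedBall_zero_iff.2 (hb z m))
    exact ⟨a, ha⟩
  choose a ha using hex
  refine ⟨LinearMap.mkContinuous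
    { toFun := a
      map_add' := fun f g => tendsto_nhds_unique (ha (f + g))
        (((ha f).add (ha g)).congr fun m => (map_add (x m) f g).symm)
      map_smul' := fun c f => tendsto_nhds_unique (ha (c • f))
        (((ha f).const_smul c).congr fun m => (map_smul (x m) c f).symm) }
    C (fun z => le_of_tendsto (ha z).norm (Eventually.of_forall fun m => hb z m)),
    LinearMap.mkContinuous_norm_le _ hC _, fun z => ha z⟩

/-- A separable dual space is normed by a countable set of elements of the unit ball of the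
predual. -/
lemma exists_norming_pred (Z : Type*) [NormedAddCommGroup Z] [NormedSpace ℝ Z]
    [TopologicalSpace.SeparableSpace (StrongDual ℝ Z)] :
    ∃ z : ℕ → Z, (∀ n, ‖z n‖ ≤ 1) ∧ ∀ x : StrongDual ℝ Z, ∀ ε > 0, ∃ n, ‖x‖ - ε ≤ |x (z n)| := by
  let d : ℕ → StrongDual ℝ Z := TopologicalSpace.denseSeq _
  have hd : DenseRange d := TopologicalSpace.denseRange_denseSeq _
  have hex : ∀ n k : ℕ, ∃ z : Z, ‖z‖ < 1 ∧ ‖d n‖ - 1 / ((k : ℝ) + 1) < ‖d n z‖ := fun n k =>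
    (d n).exists_lt_apply_of_lt_opNorm (by
      have : (0 : ℝ) < 1 / ((k : ℝ) + 1) := by positivity
      linarith)
  choose z hz1 hz2 using hex
  refine ⟨fun n => z (Nat.unpair n).1 (Nat.unpair n).2, fun n => (hz1 _ _).le,
    fun x ε hε => ?_⟩
  obtain ⟨n, hn⟩ := hd.exists_dist_lt x (ε := ε / 4) (by positivity)
  obtain ⟨k, hk⟩ := exists_nat_one_div_lt (show (0 : ℝ) < ε / 4 by positivity)
  refine ⟨Nat.pair n k, ?_⟩
  simp only [Nat.unpair_pair]
  rw [dist_eq_norm] at hn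
  have h1 := hz2 n k
  have h2 : ‖x‖ ≤ ‖d n‖ + ‖x - d n‖ := by
    calc ‖x‖ = ‖d n + (x - d n)‖ := by congr 1; abel
      _ ≤ _ := norm_add_le _ _
  have h3 : ‖(x - d n) (z n k)‖ ≤ ‖x - d n‖ * 1 :=
    ((x - d n).le_opNorm _).trans (by gcongr; exact (hz1 n k).le)
  have h4 : ‖d n (z n k)‖ ≤ ‖x (z n k)‖ + ‖(x - d n) (z n k)‖ := by
    calc ‖d n (z n k)‖ = ‖x (z n k) - (x - d n) (z n k)‖ := by
          congr 1
          change d n (z n k) = x (z n k) - (x (z n k) - d n (z n k))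
          ring
      _ ≤ _ := norm_sub_le _ _
  rw [← Real.norm_eq_abs]
  linarith

/-- Separable dual spaces have the Radon-Nikodym property. -/
theorem curveDiff_dual (Z : Type*) [NormedAddCommGroup Z] [NormedSpace ℝ Z]
    [TopologicalSpace.SeparableSpace (StrongDual ℝ Z)] : CurveDiff (StrongDual ℝ Z) := by
  obtain ⟨z, hz1, hz2⟩ := exists_norming_pred Z
  refine curveDiff_of_compact (fun n => NormedSpace.inclusionInDoubleDual ℝ Z (z n)) ?_ ?_ ?_
  · intro n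
    exact (NormedSpace.double_dual_bound ℝ Z (z n)).trans (hz1 n)
  · intro x ε hε
    obtain ⟨n, hn⟩ := hz2 x ε hε
    exact ⟨n, hn⟩
  · intro x C hx
    obtain ⟨ψ, -, hψ⟩ := exists_weakstar_limit x C hx
    exact ⟨ψ, fun n => hψ (z n)⟩

end Dual

end Vale.Agent.P124.H440
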