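import Mathlib
import Vale.Agent.P124.R2.helper477.Curve
import Vale.Agent.P124.H440.Rad

open Filter Topology MeasureTheory
open scoped NNReal ENNReal

namespace Vale.Agent.P124.H440

open Vale.Agent.P124.R2

/-- The Radon-Nikodym property passes to closed subspaces. -/
theorem CurveDiff.of_embedding {X Y : Type*} [NormedAddCommGroup X] [NormedSpace ℝ X]
    [NormedAddCommGroup Y] [NormedSpace ℝ Y] [CompleteSpace Y] (hX : CurveDiff X)
    (j : Y →L[ℝ] X) (K : ℝ≥0) (hj : AntilipschitzWith K j) : CurveDiff Y := by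
  intro γ L hγ
  have hclo : IsClosed (Set.range j) := hj.isClosed_range j.uniformContinuous
  filter_upwards [hX (fun s => j (γ s)) _ (j.lipschitz.comp hγ)] with s hs
  have h1 : Tendsto (fun t : ℝ => j (t⁻¹ • (γ (s + t) - γ s))) (𝓝[≠] 0)
      (𝓝 (deriv (fun s => j (γ s)) s)) := by
    refine hs.hasDerivAt.tendsto_slope_zero.congr fun t => ?_
    rw [map_smul, map_sub]
  obtain ⟨w, hw⟩ : deriv (fun s => j (γ s)) s ∈ Set.range j :=
    hclo.mem_of_tendsto h1 (Eventually.of_forall fun t => ⟨_, rfl⟩)
  rw [← hw] at h1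
  have h2 : Tendsto (fun t : ℝ => t⁻¹ • (γ (s + t) - γ s)) (𝓝[≠] 0) (𝓝 w) :=
    (hj.isInducing j.continuous).tendsto_nhds_iff.2 h1
  exact (hasDerivAt_iff_tendsto_slope_zero.2 h2).differentiableAt

variable {E : ℕ → Type*} [∀ i, NormedAddCommGroup (E i)] [∀ i, NormedSpace ℝ (E i)]

theorem ae_forall_coord_differentiableAt' (hE : ∀ i, CurveDiff (E i)) {γ : ℝ → lp E 1} {L : ℝ≥0}
    (hγ : LipschitzWith L γ) :
    ∀ᵐ s : ℝ, ∀ k, DifferentiableAt ℝ (fun u => γ u k) s := by
  rw [ae_all_iff]
  intro k
  exact hE k _ _ (lipschitz_coord hγ k)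

variable [∀ i, CompleteSpace (E i)]

theorem aestronglyMeasurable_coordDeriv' (hE : ∀ i, CurveDiff (E i)) {γ : ℝ → lp E 1} {L : ℝ≥0}
    (hγ : LipschitzWith L γ) :
    AEStronglyMeasurable (coordDeriv γ) volume := by
  apply aestronglyMeasurable_of_tendsto_ae (u := atTop)
    (f := fun (N : ℕ) (s : ℝ) => ∑ k ∈ Finset.range N,
      lp.singleContinuousLinearMap ℝ E 1 k (deriv (fun u => γ u k) s))
  · intro N
    refine Finset.aestronglyMeasurable_fun_sum _ fun k _ => ?_
    exact (lp.singleContinuousLinearMap ℝ E 1 k).continuous.comp_aestronglyMeasurable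
      (stronglyMeasurable_deriv _).aestronglyMeasurable
  · filter_upwards [ae_forall_coord_differentiableAt' hE hγ] with s hs
    exact (coordDeriv_hasSum hγ s hs).tendsto_sum_nat

theorem locallyIntegrable_coordDeriv' (hE : ∀ i, CurveDiff (E i)) {γ : ℝ → lp E 1} {L : ℝ≥0}
    (hγ : LipschitzWith L γ) :
    LocallyIntegrable (coordDeriv γ) volume := by
  have h : MemLp (coordDeriv γ) ∞ volume := by
    refine memLp_top_of_bound (aestronglyMeasurable_coordDeriv' hE hγ) L ?_
    filter_upwards [ae_forall_coord_differentiableAt' hE hγ] with s hs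
    exact norm_coordDeriv_le hγ s hs
  exact h.locallyIntegrable le_top

/-- Lipschitz curves into an `l1`-sum of spaces with the Radon-Nikodym property are differentiable
almost everywhere. -/
theorem curveDiff_lp_one (hE : ∀ i, CurveDiff (E i)) : CurveDiff (lp E 1) := by
  intro γ L hγ
  have hint := locallyIntegrable_coordDeriv' hE hγ
  have hii : ∀ a b : ℝ, IntervalIntegrable (coordDeriv γ) volume a b := fun a b =>
    intervalIntegrable_iff.mpr
      ((hint.integrableOn_isCompact isCompact_uIcc).mono_set Set.uIoc_subset_uIcc)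
  set F : ℝ → lp E 1 := fun x => ∫ t in (0 : ℝ)..x, coordDeriv γ t with hF
  have hbd : ∀ᵐ s : ℝ, ‖coordDeriv γ s‖ ≤ L := by
    filter_upwards [ae_forall_coord_differentiableAt' hE hγ] with s hs
    exact norm_coordDeriv_le hγ s hs
  have hFd : ∀ᵐ s : ℝ, HasDerivAt F (coordDeriv γ s) s := by
    filter_upwards [_root_.LocallyIntegrable.ae_hasDerivAt_integral hint] with s hs
    exact hs 0
  have hFL : LipschitzWith L F := by
    apply LipschitzWith.of_dist_le_mul
    intro x y
    rw [dist_eq_norm, dist_eq_norm]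
    have : F x - F y = ∫ t in y..x, coordDeriv γ t := by
      simp only [hF]
      exact intervalIntegral.integral_interval_sub_left (hii _ _) (hii _ _)
    rw [this]
    apply intervalIntegral.norm_integral_le_of_norm_le_const_ae
    filter_upwards [hbd] with t ht _
    exact ht
  have hcoord : ∀ (k : ℕ) (b : ℝ), γ b k - F b k = γ 0 k - F 0 k := by
    intro k b
    set h : ℝ → E k := fun x => γ x k - F x k with hh
    have hL : LipschitzWith (L + L) h := (lipschitz_coord hγ k).sub (lipschitz_coord hFL k)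
    have hac : AbsolutelyContinuousOnInterval h 0 b :=
      (hL.lipschitzOnWith (s := Set.uIcc 0 b)).absolutelyContinuousOnInterval
    have hd : ∀ᵐ x, x ∈ Set.uIcc 0 b → HasDerivAt h 0 x := by
      filter_upwards [ae_forall_coord_differentiableAt' hE hγ, hFd] with x hx hx2 _
      have h1 := (hx k).hasDerivAt
      have h2 : HasDerivAt (fun u => F u k) (coordDeriv γ x k) x :=
        (lp.evalCLM ℝ E 1 k).hasFDerivAt.comp_hasDerivAt x hx2
      rw [coordDeriv_apply hγ x hx k] at h2
      have h3 := h1.sub h2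
      rw [sub_self] at h3
      exact h3
    obtain ⟨C, hC⟩ := hac.const_of_ae_hasDerivAt_zero hd
    have e1 := hC b Set.right_mem_uIcc
    have e2 := hC 0 Set.left_mem_uIcc
    rw [hh] at e1 e2
    exact e1.trans e2.symm
  have hγF : γ = fun x => (γ 0 - F 0) + F x := by
    funext x
    apply lp.ext
    funext k
    have := hcoord k x
    rw [lp.coeFn_add, lp.coeFn_sub]
    simp only [Pi.add_apply, Pi.sub_apply]
    rw [← this]
    simp
  filter_upwards [hFd] with s hs
  exact ((hs.const_add (γ 0 - F 0)).congr_of_eventuallyEq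
    (Eventually.of_forall fun x => congrFun hγF x)).differentiableAt

end Vale.Agent.P124.H440
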