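import Mathlib
import Vale.Agent.P124.R2.H124.Pelc
import Vale.Agent.P124.H440.Bidual

open Filter Topology MeasureTheory
open scoped NNReal ENNReal

namespace Vale.Agent.P124.H440

open Vale.Agent.P124.R2

variable {E : ℕ → Type*} [∀ i, NormedAddCommGroup (E i)] [∀ i, NormedSpace ℝ (E i)]

/-- Functionals of norm at most one almost norm a functional. -/
lemma exists_almost_norming {Z : Type*} [NormedAddCommGroup Z] [NormedSpace ℝ Z]
    (φ : StrongDual ℝ Z) {ε : ℝ} (hε : 0 < ε) : ∃ z : Z, ‖z‖ ≤ 1 ∧ ‖φ‖ - ε ≤ φ z := by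
  obtain ⟨z, hz1, hz2⟩ := φ.exists_lt_apply_of_lt_opNorm (r := ‖φ‖ - ε) (by linarith)
  rw [Real.norm_eq_abs] at hz2
  rcases le_total 0 (φ z) with h | h
  · refine ⟨z, hz1.le, ?_⟩
    rw [abs_of_nonneg h] at hz2
    exact hz2.le
  · refine ⟨-z, by rw [norm_neg]; exact hz1.le, ?_⟩
    rw [abs_of_nonpos h] at hz2
    rw [map_neg]
    exact hz2.le

/-- The coordinate of a functional on the dual of the `l1`-sum. -/
noncomputable def bcoord (k : ℕ) (ξ : StrongDual ℝ (StrongDual ℝ (lp E 1))) :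
    StrongDual ℝ (StrongDual ℝ (E k)) :=
  LinearMap.mkContinuous
    { toFun := fun f => ξ (f.comp (lp.evalCLM ℝ E 1 k))
      map_add' := fun f g => by
        rw [← map_add]
        rfl
      map_smul' := fun c f => by
        rw [RingHom.id_apply, ← map_smul]
        rfl } ‖ξ‖
    (fun f => by
      refine (ξ.le_opNorm _).trans ?_
      gcongr
      refine ContinuousLinearMap.opNorm_le_bound _ (norm_nonneg _) fun x => ?_
      refine (f.le_opNorm _).trans ?_
      gcongr
      exact lp.norm_apply_le_norm one_ne_zero _ _)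

lemma bcoord_apply (k : ℕ) (ξ : StrongDual ℝ (StrongDual ℝ (lp E 1))) (f : StrongDual ℝ (E k)) :
    bcoord k ξ f = ξ (f.comp (lp.evalCLM ℝ E 1 k)) := rfl

lemma bcoord_add (k : ℕ) (ξ η : StrongDual ℝ (StrongDual ℝ (lp E 1))) :
    bcoord k (ξ + η) = bcoord k ξ + bcoord k η := rfl

lemma bcoord_sub (k : ℕ) (ξ η : StrongDual ℝ (StrongDual ℝ (lp E 1))) :
    bcoord k (ξ - η) = bcoord k ξ - bcoord k η := rfl

lemma bcoord_smul (k : ℕ) (c : ℝ) (ξ : StrongDual ℝ (StrongDual ℝ (lp E 1))) :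
    bcoord k (c • ξ) = c • bcoord k ξ := rfl

lemma bcoord_inclusion (k : ℕ) (x : lp E 1) :
    bcoord k (NormedSpace.inclusionInDoubleDual ℝ (lp E 1) x)
      = NormedSpace.inclusionInDoubleDual ℝ (E k) (x k) := rfl

/-- Coordinates of a functional on the `l1`-sum. -/
noncomputable def fcoord (g : StrongDual ℝ (lp E 1)) (k : ℕ) : StrongDual ℝ (E k) :=
  g.comp (lp.singleContinuousLinearMap ℝ E 1 k)

lemma fcoord_apply (g : StrongDual ℝ (lp E 1)) (k : ℕ) (e : E k) :
    fcoord g k e = g (lp.single 1 k e) := rfl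

lemma norm_fcoord_le (g : StrongDual ℝ (lp E 1)) (k : ℕ) : ‖fcoord g k‖ ≤ ‖g‖ := by
  refine ContinuousLinearMap.opNorm_le_bound _ (norm_nonneg _) fun x => ?_
  rw [fcoord_apply]
  refine (g.le_opNorm _).trans_eq ?_
  rw [lp.norm_single (by simp)]

/-- Replace finitely many coordinates of a functional. -/
lemma exists_replace (ξ : StrongDual ℝ (StrongDual ℝ (lp E 1))) (g : StrongDual ℝ (lp E 1))
    (hg : ‖g‖ ≤ 1) (s : Finset ℕ) (f : ∀ k, StrongDual ℝ (E k)) (hf : ∀ k, ‖f k‖ ≤ 1) :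
    ∑ k ∈ s, bcoord k ξ (f k) + ξ g - ∑ k ∈ s, bcoord k ξ (fcoord g k) ≤ ‖ξ‖ := by
  classical
  let C : ∀ k, E k →L[ℝ] ℝ := fun k => if k ∈ s then f k else fcoord g k
  have hC : ∀ k e, ‖C k e‖ ≤ 1 * ‖e‖ := by
    intro k e
    refine (C k).le_of_opNorm_le ?_ e
    by_cases hk : k ∈ s
    · simp only [C, hk, if_true]
      exact hf k
    · simp only [C, hk, if_false]
      exact (norm_fcoord_le g k).trans hg
  let F : lp E 1 →L[ℝ] ℝ := glue C 1 hC
  have hF1 : ‖F‖ ≤ 1 := LinearMap.mkContinuous_norm_le _ zero_le_one _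
  have hF : F = ∑ k ∈ s, (f k).comp (lp.evalCLM ℝ E 1 k) + g
      - ∑ k ∈ s, (fcoord g k).comp (lp.evalCLM ℝ E 1 k) := by
    refine lp1_hom_ext fun k e => ?_
    have h1 : F (lp.single 1 k e) = C k e := glue_single C 1 hC k e
    have h2 : ∀ h : ∀ k, StrongDual ℝ (E k),
        (∑ j ∈ s, (h j).comp (lp.evalCLM ℝ E 1 j)) (lp.single 1 k e)
          = if k ∈ s then h k e else 0 := by
      intro h
      rw [ContinuousLinearMap.sum_apply]
      have h3 : ∀ j, ((h j).comp (lp.evalCLM ℝ E 1 j)) (lp.single 1 k e)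
          = if j = k then h k e else 0 := by
        intro j
        change h j ((lp.single 1 k e : lp E 1) j) = _
        by_cases hj : j = k
        · subst hj
          simp
        · rw [lp.single_apply_ne _ _ _ hj, map_zero, if_neg hj]
      simp only [h3]
      rw [Finset.sum_ite_eq']
    change F (lp.single 1 k e) = (∑ j ∈ s, (f j).comp (lp.evalCLM ℝ E 1 j)) (lp.single 1 k e)
      + g (lp.single 1 k e)
      - (∑ j ∈ s, (fcoord g j).comp (lp.evalCLM ℝ E 1 j)) (lp.single 1 k e)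
    rw [h1, h2, h2]
    by_cases hk : k ∈ s
    · simp only [C, hk, if_true, fcoord_apply]
      ring
    · simp only [C, hk, if_false, fcoord_apply]
      ring
  have h4 : ξ F = ∑ k ∈ s, bcoord k ξ (f k) + ξ g - ∑ k ∈ s, bcoord k ξ (fcoord g k) := by
    rw [hF, map_sub, map_add, map_sum, map_sum]
    rfl
  rw [← h4]
  calc ξ F ≤ ‖ξ F‖ := Real.le_norm_self _
    _ ≤ ‖ξ‖ * ‖F‖ := ξ.le_opNorm _
    _ ≤ ‖ξ‖ * 1 := by gcongr
    _ = ‖ξ‖ := mul_one _

lemma sum_norm_bcoord_le (ξ : StrongDual ℝ (StrongDual ℝ (lp E 1))) (s : Finset ℕ) :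
    ∑ k ∈ s, ‖bcoord k ξ‖ ≤ ‖ξ‖ := by
  refine le_of_forall_pos_le_add fun ε hε => ?_
  have hpos : 0 < ε / (s.card + 1) := by positivity
  choose f hf1 hf2 using fun k => exists_almost_norming (bcoord k ξ) hpos
  have h1 := exists_replace ξ 0 (by simp) s f hf1
  have h2 : ∀ k, bcoord k ξ (fcoord 0 k) = 0 := by
    intro k
    have : fcoord (0 : StrongDual ℝ (lp E 1)) k = 0 := rfl
    rw [this, map_zero]
  simp only [h2, map_zero, Finset.sum_const_zero, add_zero, sub_zero] at h1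
  have h3 : ∑ k ∈ s, (‖bcoord k ξ‖ - ε / (s.card + 1)) ≤ ∑ k ∈ s, bcoord k ξ (f k) :=
    Finset.sum_le_sum fun k _ => hf2 k
  rw [Finset.sum_sub_distrib, Finset.sum_const, nsmul_eq_mul] at h3
  have h4 : (s.card : ℝ) * (ε / (s.card + 1)) ≤ ε := by
    rw [mul_div_assoc', div_le_iff₀ (by positivity)]
    nlinarith
  linarith

/-- The `l1`-sum of `c`-L-embedded spaces is `c`-L-embedded. -/
theorem LEmb.lp_one {c : ℝ} (hc0 : 0 ≤ c) (hc1 : c ≤ 1) (hE : ∀ i, LEmb c (E i)) :
    LEmb c (lp E 1) := by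
  choose P hPJ hP using hE
  have hPn : ∀ k (ξ : StrongDual ℝ (StrongDual ℝ (E k))), ‖P k ξ‖ ≤ ‖ξ‖ := by
    intro k ξ
    have h1 := hP k ξ
    have h2 : 0 ≤ c * ‖ξ - NormedSpace.inclusionInDoubleDual ℝ (E k) (P k ξ)‖ := by positivity
    linarith
  have hsum : ∀ (ξ : StrongDual ℝ (StrongDual ℝ (lp E 1))) (s : Finset ℕ),
      ∑ k ∈ s, ‖P k (bcoord k ξ)‖ ≤ ‖ξ‖ := fun ξ s =>
    (Finset.sum_le_sum fun k _ => hPn k _).trans (sum_norm_bcoord_le ξ s)
  let Q : StrongDual ℝ (StrongDual ℝ (lp E 1)) →ₗ[ℝ] lp E 1 :=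
    { toFun := fun ξ => ⟨fun k => P k (bcoord k ξ), lp1_memlp (hsum ξ)⟩
      map_add' := fun ξ η => by
        ext k
        change P k (bcoord k (ξ + η)) = P k (bcoord k ξ) + P k (bcoord k η)
        rw [bcoord_add, map_add]
      map_smul' := fun a ξ => by
        ext k
        change P k (bcoord k (a • ξ)) = a • P k (bcoord k ξ)
        rw [bcoord_smul, map_smul] }
  have hQ : ∀ ξ k, Q ξ k = P k (bcoord k ξ) := fun _ _ => rfl
  refine ⟨Q, fun x => ?_, fun ξ => ?_⟩
  · ext k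
    rw [hQ, bcoord_inclusion, hPJ]
  · set x := Q ξ with hx
    set η := ξ - NormedSpace.inclusionInDoubleDual ℝ (lp E 1) x with hη
    have hξη : ∀ f, ξ f = η f + f x := by
      intro f
      rw [hη]
      change ξ f = (ξ f - f x) + f x
      ring
    have hbη : ∀ k, bcoord k η = bcoord k ξ - NormedSpace.inclusionInDoubleDual ℝ (E k) (x k) :=
      fun k => by rw [hη, bcoord_sub, bcoord_inclusion]
    refine le_of_forall_pos_le_add fun ε hε => ?_
    -- approximately norming functional for `η`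
    obtain ⟨g, hg1, hg2⟩ := exists_almost_norming η (ε := ε / 4) (by positivity)
    obtain ⟨s, hs⟩ : ∃ s : Finset ℕ, ‖x‖ - ε / 4 < ∑ k ∈ s, ‖x k‖ := by
      have := (lp1_hasSum_norm x).eventually (lt_mem_nhds (by linarith : ‖x‖ - ε / 4 < ‖x‖))
      exact this.exists
    have hpos : 0 < ε / 4 / (s.card + 1) := by positivity
    choose f hf1 hf2 using fun k => exists_almost_norming (bcoord k ξ) hpos
    have h1 := exists_replace ξ g hg1 s f hf1
    have h3 : ∑ k ∈ s, (‖bcoord k ξ‖ - ε / 4 / (s.card + 1)) ≤ ∑ k ∈ s, bcoord k ξ (f k) :=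
      Finset.sum_le_sum fun k _ => hf2 k
    rw [Finset.sum_sub_distrib, Finset.sum_const, nsmul_eq_mul] at h3
    have h4 : (s.card : ℝ) * (ε / 4 / (s.card + 1)) ≤ ε / 4 := by
      rw [mul_div_assoc', div_le_iff₀ (by positivity)]
      nlinarith
    -- coordinates
    have h5 : ∑ k ∈ s, (‖x k‖ + c * ‖bcoord k η‖) ≤ ∑ k ∈ s, ‖bcoord k ξ‖ := by
      refine Finset.sum_le_sum fun k _ => ?_
      have := hP k (bcoord k ξ)
      rw [hbη k]
      exact this
    rw [Finset.sum_add_distrib, ← Finset.mul_sum] at h5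
    have h6 : ∑ k ∈ s, ‖bcoord k η‖ ≤ ‖η‖ := sum_norm_bcoord_le η s
    have h7 : ∑ k ∈ s, bcoord k ξ (fcoord g k) =
        ∑ k ∈ s, bcoord k η (fcoord g k) + ∑ k ∈ s, g (lp.single 1 k (x k)) := by
      rw [← Finset.sum_add_distrib]
      refine Finset.sum_congr rfl fun k _ => ?_
      rw [hbη k]
      change bcoord k ξ (fcoord g k) = (bcoord k ξ (fcoord g k) - fcoord g k (x k))
        + g (lp.single 1 k (x k))
      rw [fcoord_apply]
      ring
    have h8 : ∑ k ∈ s, bcoord k η (fcoord g k) ≤ ∑ k ∈ s, ‖bcoord k η‖ := by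
      refine Finset.sum_le_sum fun k _ => ?_
      calc bcoord k η (fcoord g k) ≤ ‖bcoord k η (fcoord g k)‖ := Real.le_norm_self _
        _ ≤ ‖bcoord k η‖ * ‖fcoord g k‖ := (bcoord k η).le_opNorm _
        _ ≤ ‖bcoord k η‖ * 1 := by
            gcongr
            exact (norm_fcoord_le g k).trans hg1
        _ = _ := mul_one _
    have h9 : ∑ k ∈ s, g (lp.single 1 k (x k)) - g x ≤ ε / 4 := by
      have e1 : ∑ k ∈ s, g (lp.single 1 k (x k)) - g x
          = g (∑ k ∈ s, lp.single 1 k (x k) - x) := by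
        rw [map_sub, map_sum]
      rw [e1]
      have h10 : ‖∑ k ∈ s, lp.single 1 k (x k) - x‖ ≤ ε / 4 := by
        refine lp1_norm_le (by positivity) fun t => ?_
        classical
        have h11 : ∀ k, ‖(∑ j ∈ s, lp.single 1 j (x j) - x : lp E 1) k‖
            = if k ∈ s then 0 else ‖x k‖ := by
          intro k
          have h12 : (∑ j ∈ s, lp.single 1 j (x j) : lp E 1) k
              = if k ∈ s then x k else 0 := by
            rw [lp.coeFn_sum, Finset.sum_apply]
            have h13 : ∀ j, (lp.single 1 j (x j) : lp E 1) k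
                = if j = k then x k else 0 := by
              intro j
              by_cases hj : j = k
              · subst hj
                simp
              · rw [lp.single_apply_ne _ _ _ (Ne.symm hj), if_neg hj]
            simp only [h13]
            rw [Finset.sum_ite_eq']
          rw [lp.coeFn_sub, Pi.sub_apply, h12]
          by_cases hk : k ∈ s
          · simp [hk]
          · simp [hk]
        simp only [h11]
        have h14 : ∑ k ∈ t, (if k ∈ s then 0 else ‖x k‖) + ∑ k ∈ s, ‖x k‖ ≤ ‖x‖ := by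
          have h15 : ∑ k ∈ t, (if k ∈ s then 0 else ‖x k‖) = ∑ k ∈ t \ s, ‖x k‖ := by
            rw [Finset.sum_ite, Finset.sum_const_zero, zero_add]
            congr 1
            ext k
            simp
          rw [h15, ← Finset.sum_union (Finset.sdiff_disjoint)]
          exact lp1_sum_le x _
        linarith
      calc g (∑ k ∈ s, lp.single 1 k (x k) - x)
          ≤ ‖g (∑ k ∈ s, lp.single 1 k (x k) - x)‖ := Real.le_norm_self _
        _ ≤ ‖g‖ * ‖∑ k ∈ s, lp.single 1 k (x k) - x‖ := g.le_opNorm _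
        _ ≤ 1 * (ε / 4) := by gcongr
        _ = ε / 4 := one_mul _
    have h16 := hξη g
    have h17 : (1 - c) * ∑ k ∈ s, ‖bcoord k η‖ ≤ (1 - c) * ‖η‖ :=
      mul_le_mul_of_nonneg_left h6 (by linarith)
    nlinarith

end Vale.Agent.P124.H440
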