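import Mathlib
import Vale.Agent.P124.H440.Gelfand
import Vale.Agent.P124.H440.L1Curve
import Vale.Agent.P124.H440.L1Emb

open Filter Topology MeasureTheory
open scoped NNReal ENNReal

namespace Vale.Agent.P124.H440

open Vale.Agent.P124.R2 NormedSpace

/-- `E` is reflexive. -/
def Reflex (E : Type*) [NormedAddCommGroup E] [NormedSpace ℝ E] : Prop :=
  Function.Surjective (NormedSpace.inclusionInDoubleDual ℝ E)

/-- The defining inequality of M-embedded spaces, for a normed space `X` in the role of the dual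
of `Z`, with `u` in the role of the canonical embedding of `Z` in its bidual, and `e` in the role
of the identity of the dual of `Z`. -/
def MEmbAux (Z X : Type*) [NormedAddCommGroup Z] [NormedSpace ℝ Z] [NormedAddCommGroup X]
    [NormedSpace ℝ X] (u : Z →L[ℝ] StrongDual ℝ X) (e : StrongDual ℝ Z → X) : Prop :=
  ∀ φ : StrongDual ℝ (StrongDual ℝ X),
    ‖φ.comp u‖ + ‖φ - inclusionInDoubleDual ℝ X (e (φ.comp u))‖ ≤ ‖φ‖

/-- `Z` is M-embedded: for every `φ` in the third dual, `‖φ‖` is at least the sum of the norm of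
the restriction `ω` of `φ` to `Z` and of the norm of `φ - ω`. -/
def MEmb (Z : Type*) [NormedAddCommGroup Z] [NormedSpace ℝ Z] : Prop :=
  MEmbAux Z (StrongDual ℝ Z) (inclusionInDoubleDual ℝ Z) id

section Refl

variable {E : Type*} [NormedAddCommGroup E] [NormedSpace ℝ E]

lemma inclusion_injective : Function.Injective (inclusionInDoubleDual ℝ E) :=
  (inclusionInDoubleDualLi (𝕜 := ℝ) (E := E)).injective

lemma norm_inclusion (x : E) : ‖inclusionInDoubleDual ℝ E x‖ = ‖x‖ :=
  (inclusionInDoubleDualLi (𝕜 := ℝ) (E := E)).norm_map x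

/-- Reflexive spaces are `c`-L-embedded for all `c`. -/
theorem LEmb.of_reflex (h : Reflex E) (c : ℝ) : LEmb c E := by
  let e : E ≃ₗ[ℝ] StrongDual ℝ (StrongDual ℝ E) :=
    LinearEquiv.ofBijective (inclusionInDoubleDual ℝ E).toLinearMap ⟨inclusion_injective, h⟩
  have he : ∀ x, e.symm (inclusionInDoubleDual ℝ E x) = x := fun x => e.symm_apply_apply x
  refine ⟨e.symm.toLinearMap, he, fun ξ => ?_⟩
  obtain ⟨x, rfl⟩ := h ξ
  change ‖e.symm (inclusionInDoubleDual ℝ E x)‖ + c * ‖inclusionInDoubleDual ℝ E x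
    - inclusionInDoubleDual ℝ E (e.symm (inclusionInDoubleDual ℝ E x))‖ ≤ _
  rw [he, ← map_sub, norm_inclusion, sub_self, norm_zero, mul_zero, add_zero, norm_inclusion]

/-- Separable reflexive spaces have the Radon-Nikodym property. -/
theorem CurveDiff.of_reflex [CompleteSpace E] [TopologicalSpace.SeparableSpace E]
    (h : Reflex E) : CurveDiff E := by
  have : TopologicalSpace.SeparableSpace (StrongDual ℝ (StrongDual ℝ E)) :=
    h.denseRange.separableSpace (inclusionInDoubleDual ℝ E).continuous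
  refine (curveDiff_dual (StrongDual ℝ E)).of_embedding (inclusionInDoubleDual ℝ E) 1 ?_
  exact AddMonoidHomClass.antilipschitz_of_bound _ fun x => by
    rw [norm_inclusion, NNReal.coe_one, one_mul]

end Refl

section MEmbedded

/-- The dual of an M-embedded space is L-embedded. -/
theorem LEmb.of_MEmb {Z : Type*} [NormedAddCommGroup Z] [NormedSpace ℝ Z] (h : MEmb Z) :
    LEmb 1 (StrongDual ℝ Z) := by
  refine ⟨
    { toFun := fun φ => φ.comp (inclusionInDoubleDual ℝ Z)
      map_add' := fun φ ψ => rfl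
      map_smul' := fun a φ => rfl }, fun x => rfl, fun φ => ?_⟩
  rw [one_mul]
  exact h φ

/-- Norm preserving extension of functionals along an isometric embedding. -/
lemma exists_ext {V V' : Type*} [NormedAddCommGroup V] [NormedSpace ℝ V] [NormedAddCommGroup V']
    [NormedSpace ℝ V'] (k' : V →ₗ[ℝ] V') (hk : ∀ v, ‖k' v‖ = ‖v‖) (f : StrongDual ℝ V) :
    ∃ g : StrongDual ℝ V', ‖g‖ ≤ ‖f‖ ∧ ∀ v, g (k' v) = f v := by
  let k : V →ₗᵢ[ℝ] V' := ⟨k', hk⟩
  let e := k.equivRange
  obtain ⟨g, hg1, hg2⟩ := exists_extension_norm_eq (LinearMap.range k.toLinearMap)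
    (f.comp (e.symm.toContinuousLinearEquiv : LinearMap.range k.toLinearMap →L[ℝ] V))
  refine ⟨g, ?_, fun v => ?_⟩
  · rw [hg2]
    refine ContinuousLinearMap.opNorm_le_bound _ (norm_nonneg _) fun x => ?_
    refine (f.le_opNorm _).trans_eq ?_
    congr 1
    exact e.symm.norm_map x
  · have := hg1 (e v)
    have h2 : ((e v : LinearMap.range k.toLinearMap) : V') = k' v := rfl
    rw [← h2, this]
    change f (e.symm (e v)) = f v
    rw [e.symm_apply_apply]

section BMap

variable {Z W : Type*} [NormedAddCommGroup Z] [NormedSpace ℝ Z]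
    [NormedAddCommGroup W] [NormedSpace ℝ W]

lemma norm_comp_isometry_le (j : Z →ₗᵢ[ℝ] W) (f : StrongDual ℝ W) :
    ‖f.comp j.toContinuousLinearMap‖ ≤ ‖f‖ := by
  refine ContinuousLinearMap.opNorm_le_bound _ (norm_nonneg _) fun x => ?_
  exact (f.le_opNorm _).trans_eq (congrArg _ (j.norm_map x))

/-- The second adjoint of an isometric embedding. -/
noncomputable def bmap (j : Z →ₗᵢ[ℝ] W) (ζ : StrongDual ℝ (StrongDual ℝ Z)) :
    StrongDual ℝ (StrongDual ℝ W) :=
  LinearMap.mkContinuous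
    { toFun := fun f => ζ (f.comp j.toContinuousLinearMap)
      map_add' := fun f g => by
        rw [← map_add]
        rfl
      map_smul' := fun c f => by
        rw [RingHom.id_apply, ← map_smul]
        rfl } ‖ζ‖
    (fun f => by
      refine (ζ.le_opNorm _).trans ?_
      gcongr
      exact norm_comp_isometry_le j f)

lemma bmap_apply (j : Z →ₗᵢ[ℝ] W)
    (ζ : StrongDual ℝ (StrongDual ℝ Z)) (f : StrongDual ℝ W) :
    bmap j ζ f = ζ (f.comp j.toContinuousLinearMap) := rfl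

lemma norm_bmap (j : Z →ₗᵢ[ℝ] W) (ζ : StrongDual ℝ (StrongDual ℝ Z)) : ‖bmap j ζ‖ = ‖ζ‖ := by
  have h0 : 0 ≤ ‖ζ‖ := norm_nonneg ζ
  have h0' : 0 ≤ ‖bmap j ζ‖ := norm_nonneg (bmap j ζ)
  refine le_antisymm (LinearMap.mkContinuous_norm_le _ h0 _) ?_
  refine ContinuousLinearMap.opNorm_le_bound _ h0' fun f => ?_
  obtain ⟨g, hg1, hg2⟩ := exists_ext j.toLinearMap j.norm_map f
  have h1 : g.comp j.toContinuousLinearMap = f := by
    ext z
    exact hg2 z
  rw [← h1, ← bmap_apply, h1]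
  refine ((bmap j ζ).le_opNorm g).trans ?_
  gcongr

end BMap

lemma memb_aux {Z W X X' : Type*} [NormedAddCommGroup Z] [NormedSpace ℝ Z]
    [NormedAddCommGroup W] [NormedSpace ℝ W] [NormedAddCommGroup X] [NormedSpace ℝ X]
    [NormedAddCommGroup X'] [NormedSpace ℝ X'] (u : Z →L[ℝ] StrongDual ℝ X)
    (u' : W →L[ℝ] StrongDual ℝ X') (e : StrongDual ℝ Z → X) (e' : StrongDual ℝ W → X')
    (j : Z →L[ℝ] W) (hj : ∀ z, ‖j z‖ ≤ ‖z‖) (k : StrongDual ℝ X →ₗ[ℝ] StrongDual ℝ X')
    (hk : ∀ ζ, ‖k ζ‖ = ‖ζ‖) (h1 : ∀ z, k (u z) = u' (j z))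
    (h2 : ∀ ζ (ω : StrongDual ℝ W), k ζ (e' ω) = ζ (e (ω.comp j)))
    (h : MEmbAux W X' u' e') : MEmbAux Z X u e := by
  intro φ
  obtain ⟨ψ, hψ1, hψ2⟩ := exists_ext k hk φ
  have h0 := h ψ
  have e1 : φ.comp u = (ψ.comp u').comp j := by
    ext z
    change φ (u z) = ψ (u' (j z))
    rw [← hψ2, h1]
  have h3 : ‖φ.comp u‖ ≤ ‖ψ.comp u'‖ := by
    rw [e1]
    refine ContinuousLinearMap.opNorm_le_bound _ (norm_nonneg _) fun z => ?_
    refine ((ψ.comp u').le_opNorm _).trans ?_
    gcongr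
    exact hj z
  have h4 : ‖φ - inclusionInDoubleDual ℝ X (e (φ.comp u))‖
      ≤ ‖ψ - inclusionInDoubleDual ℝ X' (e' (ψ.comp u'))‖ := by
    refine ContinuousLinearMap.opNorm_le_bound _ (norm_nonneg _) fun ζ => ?_
    have e2 : (φ - inclusionInDoubleDual ℝ X (e (φ.comp u))) ζ
        = (ψ - inclusionInDoubleDual ℝ X' (e' (ψ.comp u'))) (k ζ) := by
      change φ ζ - ζ (e (φ.comp u)) = ψ (k ζ) - (k ζ) (e' (ψ.comp u'))
      rw [hψ2, e1, h2]
    rw [e2]
    refine (ContinuousLinearMap.le_opNorm _ _).trans ?_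
    rw [hk]
  linarith

/-- Subspaces of M-embedded spaces are M-embedded. -/
theorem MEmb.of_isometry {Z W : Type*} [NormedAddCommGroup Z] [NormedSpace ℝ Z]
    [NormedAddCommGroup W] [NormedSpace ℝ W] (h : MEmb W) (j : Z →ₗᵢ[ℝ] W) : MEmb Z := by
  refine memb_aux (Z := Z) (W := W) (X := StrongDual ℝ Z) (X' := StrongDual ℝ W) _ _ id id
    j.toContinuousLinearMap (fun z => (j.norm_map z).le)
    { toFun := bmap j
      map_add' := fun _ _ => rfl
      map_smul' := fun _ _ => rfl } (norm_bmap j) (fun z => rfl) (fun ζ ω => rfl) h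

end MEmbedded

end Vale.Agent.P124.H440
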