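import Mathlib
import Vale.Agent.P124.H440.Inst

open Filter Topology MeasureTheory
open scoped NNReal ENNReal

namespace Vale.Agent.P124.H440

open NormedSpace

section Blocks

variable {Z : Type*} [NormedAddCommGroup Z] [NormedSpace ℝ Z] {A B : Z →L[ℝ] Z}

lemma blocks_norm (h1 : ∀ x y, ‖A x + B y‖ ≤ max ‖x‖ ‖y‖) (ω : StrongDual ℝ Z) :
    ‖ω.comp A‖ + ‖ω.comp B‖ ≤ ‖ω‖ := by
  refine le_of_forall_pos_le_add fun ε hε => ?_
  obtain ⟨x, hx1, hx2⟩ := exists_almost_norming (ω.comp A) (ε := ε / 2) (by positivity)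
  obtain ⟨y, hy1, hy2⟩ := exists_almost_norming (ω.comp B) (ε := ε / 2) (by positivity)
  have h2 : ω (A x + B y) ≤ ‖ω‖ := by
    calc ω (A x + B y) ≤ ‖ω (A x + B y)‖ := Real.le_norm_self _
      _ ≤ ‖ω‖ * ‖A x + B y‖ := ω.le_opNorm _
      _ ≤ ‖ω‖ * 1 := by
          gcongr
          exact (h1 x y).trans (max_le hx1 hy1)
      _ = ‖ω‖ := mul_one _
  rw [map_add] at h2
  change ‖ω.comp A‖ - ε / 2 ≤ ω (A x) at hx2
  change ‖ω.comp B‖ - ε / 2 ≤ ω (B y) at hy2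
  linarith

lemma blocks_tendsto {A B : ℕ → Z →L[ℝ] Z} (h1 : ∀ n x y, ‖A n x + B n y‖ ≤ max ‖x‖ ‖y‖)
    (h2 : ∀ x, Tendsto (fun n => A n x) atTop (𝓝 x)) (ω : StrongDual ℝ Z) :
    Tendsto (fun n => ‖ω.comp (B n)‖) atTop (𝓝 0) := by
  rw [Metric.tendsto_atTop]
  intro ε hε
  obtain ⟨x, hx1, hx2⟩ := exists_almost_norming ω (ε := ε / 4) (by positivity)
  have h3 : Tendsto (fun n => ω (A n x)) atTop (𝓝 (ω x)) := (ω.continuous.tendsto x).comp (h2 x)
  obtain ⟨N, hN⟩ := Metric.tendsto_atTop.1 h3 (ε / 4) (by positivity)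
  refine ⟨N, fun n hn => ?_⟩
  have h4 := hN n hn
  rw [Real.dist_eq] at h4
  have h5 := (abs_lt.1 h4).1
  have h6 : ω (A n x) ≤ ‖ω.comp (A n)‖ := by
    calc ω (A n x) ≤ ‖(ω.comp (A n)) x‖ := Real.le_norm_self _
      _ ≤ ‖ω.comp (A n)‖ * ‖x‖ := (ω.comp (A n)).le_opNorm _
      _ ≤ ‖ω.comp (A n)‖ * 1 := by gcongr
      _ = _ := mul_one _
  have h7 := blocks_norm (h1 n) ω
  rw [dist_zero_right, norm_norm]
  linarith

/-- The criterion for M-embedded spaces, with `X` in the role of the dual of `Z`. -/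
lemma memb_of_blocks_aux {X : Type*} [NormedAddCommGroup X] [NormedSpace ℝ X]
    (e : StrongDual ℝ Z ≃ₗᵢ[ℝ] X) (u : Z →L[ℝ] StrongDual ℝ X)
    (hu : ∀ z ω, u z (e ω) = ω z)
    {A B : ℕ → Z →L[ℝ] Z} (h1 : ∀ n x y, ‖A n x + B n y‖ ≤ max ‖x‖ ‖y‖)
    (h2 : ∀ x, Tendsto (fun n => A n x) atTop (𝓝 x))
    (h3 : ∀ n (T : StrongDual ℝ X), ∃ z : Z, ∀ ω, T (e (ω.comp (B n))) = T (e ω) - ω z) :
    MEmbAux Z X u e := by
  intro φ
  obtain ⟨ω, hω⟩ : ∃ ω, φ.comp u = ω := ⟨_, rfl⟩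
  rw [hω]
  obtain ⟨σ, hσ⟩ : ∃ σ, φ - inclusionInDoubleDual ℝ X (e ω) = σ := ⟨_, rfl⟩
  rw [hσ]
  have hφ : ∀ F, φ F = F (e ω) + σ F := by
    intro F
    rw [← hσ]
    change φ F = F (e ω) + (φ F - F (e ω))
    ring
  have hσu : ∀ z, σ (u z) = 0 := by
    intro z
    have h4 := hφ (u z)
    have h5 : φ (u z) = ω z := by rw [← hω]; rfl
    rw [h5, hu] at h4
    linarith
  refine le_of_forall_pos_le_add fun ε hε => ?_
  obtain ⟨S, hS1, hS2⟩ := exists_almost_norming ω (ε := ε / 4) (by positivity)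
  obtain ⟨T, hT1, hT2⟩ := exists_almost_norming σ (ε := ε / 4) (by positivity)
  -- choose `n`
  have hlim1 : Tendsto (fun n => ω (A n S)) atTop (𝓝 (ω S)) := (ω.continuous.tendsto S).comp (h2 S)
  obtain ⟨n, hn1, hn2⟩ := ((hlim1.eventually (lt_mem_nhds (show ω S - ε / 4 < ω S by
    linarith))).and ((blocks_tendsto h1 h2 ω).eventually (gt_mem_nhds
      (show (0 : ℝ) < ε / 4 by positivity)))).exists
  obtain ⟨z, hz⟩ := h3 n T
  -- the test element of the dual of `X`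
  let U : StrongDual ℝ X := LinearMap.mkContinuous
    { toFun := fun x => (e.symm x) (A n S) + T (e ((e.symm x).comp (B n)))
      map_add' := fun x y => by
        have h5 : (e.symm (x + y)).comp (B n) = (e.symm x).comp (B n) + (e.symm y).comp (B n) := by
          rw [map_add]
          rfl
        rw [h5, map_add, map_add, map_add]
        change ((e.symm x) (A n S) + (e.symm y) (A n S)) + _ = _
        ring
      map_smul' := fun c x => by
        have h5 : (e.symm (c • x)).comp (B n) = c • (e.symm x).comp (B n) := by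
          rw [map_smul]
          rfl
        rw [h5, map_smul, map_smul, map_smul, RingHom.id_apply, smul_eq_mul, smul_eq_mul]
        change c * (e.symm x) (A n S) + _ = _
        ring } 1
    (fun x => by
      change ‖(e.symm x) (A n S) + T (e ((e.symm x).comp (B n)))‖ ≤ 1 * ‖x‖
      have h5 : ‖(e.symm x) (A n S)‖ ≤ ‖(e.symm x).comp (A n)‖ := by
        calc ‖(e.symm x) (A n S)‖ = ‖((e.symm x).comp (A n)) S‖ := rfl
          _ ≤ ‖(e.symm x).comp (A n)‖ * ‖S‖ := ContinuousLinearMap.le_opNorm _ _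
          _ ≤ ‖(e.symm x).comp (A n)‖ * 1 := by gcongr
          _ = _ := mul_one _
      have h6 : ‖T (e ((e.symm x).comp (B n)))‖ ≤ ‖(e.symm x).comp (B n)‖ := by
        calc ‖T (e ((e.symm x).comp (B n)))‖ ≤ 1 * ‖e ((e.symm x).comp (B n))‖ :=
              T.le_of_opNorm_le hT1 _
          _ = _ := by rw [one_mul, e.norm_map]
      have h7 := blocks_norm (h1 n) (e.symm x)
      rw [e.symm.norm_map] at h7
      have h8 := norm_add_le ((e.symm x) (A n S)) (T (e ((e.symm x).comp (B n))))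
      linarith)
  have hU : ‖U‖ ≤ 1 := LinearMap.mkContinuous_norm_le _ zero_le_one _
  have hUe : ∀ ω', U (e ω') = ω' (A n S) + T (e (ω'.comp (B n))) := by
    intro ω'
    change (e.symm (e ω')) (A n S) + T (e ((e.symm (e ω')).comp (B n))) = _
    rw [e.symm_apply_apply]
  have hU2 : U = u (A n S) + (T - u z) := by
    ext x
    obtain ⟨ω', rfl⟩ := e.surjective x
    rw [hUe, hz]
    change _ = (u (A n S)) (e ω') + (T (e ω') - u z (e ω'))
    rw [hu, hu]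
  have h9 : σ U = σ T := by
    rw [hU2, map_add, map_sub, hσu, hσu]
    ring
  have h10 : φ U ≤ ‖φ‖ := by
    calc φ U ≤ ‖φ U‖ := Real.le_norm_self _
      _ ≤ ‖φ‖ * ‖U‖ := φ.le_opNorm _
      _ ≤ ‖φ‖ * 1 := by gcongr
      _ = ‖φ‖ := mul_one _
  rw [hφ, h9, hUe] at h10
  have h11 : |T (e (ω.comp (B n)))| ≤ ε / 4 := by
    rw [← Real.norm_eq_abs]
    calc ‖T (e (ω.comp (B n)))‖ ≤ 1 * ‖e (ω.comp (B n))‖ := T.le_of_opNorm_le hT1 _
      _ = ‖ω.comp (B n)‖ := by rw [one_mul, e.norm_map]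
      _ ≤ ε / 4 := hn2.le
  have h12 := (abs_le.1 h11).1
  linarith

/-- The criterion for M-embedded spaces. -/
theorem memb_of_blocks {A B : ℕ → Z →L[ℝ] Z} (h1 : ∀ n x y, ‖A n x + B n y‖ ≤ max ‖x‖ ‖y‖)
    (h2 : ∀ x, Tendsto (fun n => A n x) atTop (𝓝 x))
    (h3 : ∀ n (T : StrongDual ℝ (StrongDual ℝ Z)), ∃ z : Z, ∀ ω : StrongDual ℝ Z,
      T (ω.comp (B n)) = T ω - ω z) :
    MEmb Z :=
  memb_of_blocks_aux (X := StrongDual ℝ Z) (LinearIsometryEquiv.refl ℝ _)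
    (inclusionInDoubleDual ℝ Z) (fun z ω => rfl) h1 h2 h3

end Blocks

end Vale.Agent.P124.H440
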