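import Mathlib
import Vale.Agent.P124.R2.H124.BlowUp
import Vale.Agent.P124.R2.H124.Pelc
import Vale.Agent.P124.H440.Bidual
import Vale.Agent.P124.H440.Rad

open Filter Topology MeasureTheory
open scoped NNReal ENNReal

namespace Vale.Agent.P124.H440

open Vale.Agent.P124.R2

variable {X : Type*} [NormedAddCommGroup X] [NormedSpace ℝ X] [CompleteSpace X]
  [TopologicalSpace.SeparableSpace X]

/-- Lipschitz retracts of `κ`-split spaces with constant below `1 / κ`. No differentiability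
is needed. -/
theorem complemented_of_retract_split {κ : ℝ} (hκ : 0 ≤ κ) (hX : Split κ X) (M : Submodule ℝ X)
    (hMc : IsClosed (M : Set X)) (r : X → X) (L' L : ℝ≥0) (hr : LipschitzWith L' r)
    (hrM : ∀ x, r x ∈ M) (hr1 : ∀ x ∈ M, r x = x) (O : Set X) (hO : IsOpen O) (m₀ : X)
    (hm₀ : m₀ ∈ M) (hm₀O : m₀ ∈ O) (hrO : LipschitzOnWith L r O) (hL : (L : ℝ) * κ < 1) :
    ∃ P : X →L[ℝ] M, ∀ y : M, P y = y := by
  let p : ℕ → X → X := fun n x => blow r m₀ n x
  have hp' : ∀ n, LipschitzWith L' (p n) := fun n => blow_lipschitz hr _ n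
  have hp : ∀ t : ℝ, ∀ᶠ n in atTop, LipschitzOnWith L (p n) (Metric.closedBall 0 t) := fun t =>
    blow_lipschitzOn hO hrO hm₀O t
  have hpM : ∀ n v, p n v ∈ M := fun n v =>
    M.smul_mem _ (M.sub_mem (hrM _) (hrM _))
  have hid : ∀ (n : ℕ) (y : M), p n y = y := by
    intro n y
    have hs := (scale_pos n).ne'
    change (scale n)⁻¹ • (r (m₀ + scale n • (y : X)) - r m₀) = y
    rw [hr1 _ (M.add_mem hm₀ (M.smul_mem _ y.2)), hr1 _ hm₀, add_sub_cancel_left, smul_smul,
      inv_mul_cancel₀ hs, one_smul]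
  have hlim : ∀ u : M, Tendsto (fun n => p n (M.subtypeL u)) atTop (𝓝 (M.subtypeL u)) := by
    intro u
    refine tendsto_const_nhds.congr fun n => ?_
    exact (hid n u).symm
  obtain ⟨Φ, h1, h2, h3, h4, h5, h6⟩ := averaging M L' L p hp' hp hpM M.subtypeL M.subtypeL hlim
  have hD : ∀ x, ∀ᶠ m in atTop, ‖Φ m x‖ ≤ (L : ℝ) * ‖x‖ := by
    intro x
    filter_upwards [h2 ‖x‖] with m hm
    have := hm.dist_le_mul x (by simp) 0 (by simp)
    rwa [h3, dist_zero_right, dist_zero_right] at this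
  exact exists_projection_split hκ hX M hMc Φ L' L L.2 hL h1 h3 hD h5 h4
    (fun y hy => h6 ⟨y, hy⟩)

variable {Y : Type*} [NormedAddCommGroup Y] [NormedSpace ℝ Y] [CompleteSpace Y]

/-- Lipschitz factors of `κ`-split spaces with the Radon-Nikodym property. -/
theorem complemented_of_factor_split {κ : ℝ} (hκ : 0 ≤ κ) (hX : Split κ X) (hR : CurveDiff X)
    (g : Y → X) (f : X → Y) (K' L' K L : ℝ≥0) (hg : LipschitzWith K' g)
    (hf : LipschitzWith L' f) (hfg : ∀ y, f (g y) = y)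
    (O : Set X) (hO : IsOpen O) (O' : Set Y) (hO' : IsOpen O') (hne : O'.Nonempty)
    (hOO : Set.MapsTo g O' O) (hgO : LipschitzOnWith K g O') (hfO : LipschitzOnWith L f O)
    (hKL : ((K * L : ℝ≥0) : ℝ) * κ < 1) :
    ∃ (S : Y →L[ℝ] X) (Q : X →L[ℝ] Y), ∀ y, Q (S y) = y := by
  have hsY : TopologicalSpace.SeparableSpace Y :=
    (Function.LeftInverse.surjective hfg).denseRange.separableSpace hf.continuous
  obtain ⟨y₀, hy₀, S, hS⟩ := exists_gateaux
    (fun n G L hG => fd_ae_differentiable_of_curve hR n G L hG) g K' hg O' hO' hne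
  have hSL : ∀ v, ‖v‖ ≤ L' * ‖S v‖ := le_norm_deriv hf hfg hS
  have hSK : ∀ v, ‖S v‖ ≤ K * ‖v‖ := norm_deriv_le hO' hgO hy₀ hS
  have hanti : AntilipschitzWith L' S := by
    refine AddMonoidHomClass.antilipschitz_of_bound S hSL
  have hinj : Function.Injective S := hanti.injective
  have hclo : IsClosed (Set.range S) := (hanti.isClosed_range S.uniformContinuous)
  -- the range of `S`
  let M : Submodule ℝ X := S.range
  have hMc : IsClosed (M : Set X) := by
    have : (M : Set X) = Set.range S := by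
      ext x; simp [M]
    rw [this]
    exact hclo
  -- the maps `p n`
  let p : ℕ → X → X := fun n x => S (blow f (g y₀) n x)
  have hSlip : LipschitzWith K S := by
    refine AddMonoidHomClass.lipschitz_of_bound_nnnorm S K fun v => ?_
    exact_mod_cast hSK v
  have hp' : ∀ n, LipschitzWith (K * L') (p n) := fun n =>
    hSlip.comp (blow_lipschitz hf _ n)
  have hp : ∀ r : ℝ, ∀ᶠ n in atTop, LipschitzOnWith (K * L) (p n) (Metric.closedBall 0 r) := by
    intro r
    filter_upwards [blow_lipschitzOn hO hfO (hOO hy₀) r] with n hn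
    exact hSlip.comp_lipschitzOnWith hn
  have hpM : ∀ n v, p n v ∈ M := fun n v => ⟨_, rfl⟩
  have hlim : ∀ u, Tendsto (fun n => p n (S u)) atTop (𝓝 (S u)) := fun u =>
    (S.continuous.tendsto u).comp (tendsto_blow_left hf hfg hS u)
  obtain ⟨Φ, h1, h2, h3, h4, h5, h6⟩ := averaging M (K * L') (K * L) p hp' hp hpM S S hlim
  have hD : ∀ x, ∀ᶠ m in atTop, ‖Φ m x‖ ≤ ((K * L : ℝ≥0) : ℝ) * ‖x‖ := by
    intro x
    filter_upwards [h2 ‖x‖] with m hm
    have := hm.dist_le_mul x (by simp) 0 (by simp)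
    rwa [h3, dist_zero_right, dist_zero_right] at this
  obtain ⟨P, hP⟩ := exists_projection_split hκ hX M hMc Φ (K * L') ((K * L : ℝ≥0) : ℝ)
    (K * L).2 hKL h1 h3 hD h5 h4 (by
      rintro y ⟨v, rfl⟩
      exact h6 v)
  let e := S.equivRange hinj hclo
  refine ⟨S, (e.symm : S.range →L[ℝ] Y).comp P, fun y => ?_⟩
  have h7 : P (S y) = e y := hP ⟨S y, y, rfl⟩
  rw [ContinuousLinearMap.comp_apply, h7]
  exact e.symm_apply_apply y

/-- A Banach space with the Radon-Nikodym property that is complemented in its bidual (here: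
`κ`-split) is complemented in every Banach space it is Lipschitz isomorphic to. -/
theorem source_complemented_split {κ : ℝ} (hX : Split κ X) (hR : CurveDiff X)
    (f : X → Y) (g : Y → X) (K L : ℝ≥0) (hg : LipschitzWith K g)
    (hf : LipschitzWith L f) (hgf : ∀ x, g (f x) = x) (hfg : ∀ y, f (g y) = y) :
    ∃ (T : X →L[ℝ] Y) (G : Y →L[ℝ] X), ∀ x, G (T x) = x := by
  have hsY : TopologicalSpace.SeparableSpace Y :=
    (Function.LeftInverse.surjective hfg).denseRange.separableSpace hf.continuous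
  obtain ⟨y₀, -, S, hS⟩ := exists_gateaux
    (fun n G L hG => fd_ae_differentiable_of_curve hR n G L hG) g K hg Set.univ isOpen_univ
    ⟨0, trivial⟩
  have hSL : ∀ v, ‖v‖ ≤ L * ‖S v‖ := le_norm_deriv hf hfg hS
  have hanti : AntilipschitzWith L S := AddMonoidHomClass.antilipschitz_of_bound S hSL
  have hinj : Function.Injective S := hanti.injective
  have hclo : IsClosed (Set.range S) := (hanti.isClosed_range S.uniformContinuous)
  -- differentiate `S ∘ f`
  have hSf : LipschitzWith (‖S‖₊ * L) (fun x => S (f x)) := S.lipschitz.comp hf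
  obtain ⟨x₀, -, T', hT'⟩ := exists_gateaux
    (fun n G L hG => fd_ae_differentiable_of_curve hR n G L hG)
    (fun x => S (f x)) _ hSf Set.univ isOpen_univ ⟨0, trivial⟩
  have hT'' : ∀ v, Tendsto (fun t : ℝ => S (t⁻¹ • (f (x₀ + t • v) - f x₀))) (𝓝[≠] 0)
      (𝓝 (T' v)) := by
    intro v
    refine (hT' v).congr fun t => ?_
    rw [map_smul, map_sub]
  have hrange : ∀ v, T' v ∈ Set.range S := fun v =>
    hclo.mem_of_tendsto (hT'' v) (Eventually.of_forall fun t => ⟨_, rfl⟩)
  let e := S.equivRange hinj hclo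
  let T₁ : X →L[ℝ] S.range := T'.codRestrict S.range (fun v => by
    obtain ⟨w, hw⟩ := hrange v
    exact ⟨w, hw⟩)
  let T : X →L[ℝ] Y := (e.symm : S.range →L[ℝ] Y).comp T₁
  have hST : ∀ v, S (T v) = T' v := by
    intro v
    have h1 : e (T v) = T₁ v := e.apply_symm_apply _
    have h2 : ((e (T v) : S.range) : X) = S (T v) := rfl
    rw [← h2, h1]
    rfl
  have hT : ∀ v, Tendsto (fun t : ℝ => t⁻¹ • (f (x₀ + t • v) - f x₀)) (𝓝[≠] 0) (𝓝 (T v)) := by
    intro v
    have h1 := hT'' v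
    rw [← hST] at h1
    exact (hanti.isInducing S.continuous).tendsto_nhds_iff.2 h1
  -- blow-ups of `g` at `f x₀`
  let p : ℕ → Y → X := fun n y => blow g (f x₀) n y
  have hp' : ∀ n, LipschitzWith K (p n) := fun n => blow_lipschitz hg _ n
  have hp : ∀ r : ℝ, ∀ᶠ n in atTop, LipschitzOnWith K (p n) (Metric.closedBall 0 r) := fun r =>
    Eventually.of_forall fun n => (hp' n).lipschitzOnWith
  have hlim : ∀ u, Tendsto (fun n => p n (T u)) atTop (𝓝 (ContinuousLinearMap.id ℝ X u)) :=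
    fun u => tendsto_blow_left hg hgf hT u
  obtain ⟨Φ, h1, -, h3, -, h5, h6⟩ := averaging (⊤ : Submodule ℝ X) K K p hp' hp
    (fun _ _ => Submodule.mem_top) T (ContinuousLinearMap.id ℝ X) hlim
  have hD : ∀ y, ∀ᶠ m in atTop, ‖Φ m y‖ ≤ (K : ℝ) * ‖y‖ := by
    intro y
    refine Eventually.of_forall fun m => ?_
    have := (h1 m).dist_le_mul y 0
    rwa [h3, dist_zero_right, dist_zero_right] at this
  obtain ⟨A, hAn, hA⟩ := exists_bidual_limit Φ K (K : ℝ) h1 h3 hD h5
  obtain ⟨P, hPJ, ⟨B, hB⟩, hP⟩ := hX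
  obtain ⟨G, hG⟩ := clm_of_additive (fun y => P (A y)) (fun x y => by rw [map_add, map_add])
    (|B| * K) (fun y => by
      calc ‖P (A y)‖ ≤ B * ‖A y‖ := hB _
        _ ≤ |B| * (K * ‖y‖) := by
            gcongr
            · exact le_abs_self B
            · exact hAn y
        _ = |B| * K * ‖y‖ := by ring)
  refine ⟨T, G, fun x => ?_⟩
  have h8 : A (T x) = NormedSpace.inclusionInDoubleDual ℝ X x := by
    ext f
    have h7 : Tendsto (fun m => f (Φ m (T x))) (hyperfilter ℕ) (𝓝 (f x)) :=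
      (f.continuous.tendsto _).comp ((h6 x).mono_left Nat.hyperfilter_le_atTop)
    rw [NormedSpace.dual_def]
    exact tendsto_nhds_unique (hA (T x) f) h7
  rw [hG, h8, hPJ]

/-- Lipschitz isomorphisms of a `κ`-split space with the Radon-Nikodym property with local
distortion less than `1 / κ` somewhere. -/
theorem iso_split {κ : ℝ} (hκ : 0 ≤ κ) (hX : Split κ X) (hR : CurveDiff X)
    (f : X ≃ Y) (K' L' K L : ℝ≥0) (O : Set X)
    (hf : LipschitzWith L' f) (hg : LipschitzWith K' f.symm) (hO : IsOpen O) (hne : O.Nonempty)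
    (hfO : LipschitzOnWith L f O) (hgO : LipschitzOnWith K f.symm (f '' O))
    (hKL : ((K * L : ℝ≥0) : ℝ) * κ < 1) :
    (∃ (S : Y →L[ℝ] X) (Q : X →L[ℝ] Y), ∀ y, Q (S y) = y) ∧
    (∃ (T : X →L[ℝ] Y) (G : Y →L[ℝ] X), ∀ x, G (T x) = x) ∧
    (Nonempty (X ≃L[ℝ] lp (fun _ : ℕ => X) 1) → Nonempty (X ≃L[ℝ] Y)) := by
  have hO' : IsOpen (f '' O) := by
    rw [Equiv.image_eq_preimage_symm]
    exact hO.preimage hg.continuous
  have hmaps : Set.MapsTo f.symm (f '' O) O := by
    rintro _ ⟨x, hx, rfl⟩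
    simpa using hx
  obtain ⟨S, Q, hQS⟩ := complemented_of_factor_split hκ hX hR f.symm f K' L' K L hg hf
    (fun y => by simp) O hO (f '' O) hO' (hne.image f) hmaps hgO hfO hKL
  obtain ⟨T, G, hGT⟩ := source_complemented_split hX hR f f.symm K' L' hg hf (fun x => by simp)
    (fun y => by simp)
  exact ⟨⟨S, Q, hQS⟩, ⟨T, G, hGT⟩, fun h => pelczynski h S Q hQS T G hGT⟩

end Vale.Agent.P124.H440
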