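import Mathlib
import Vale.Agent.P124.H440.Blocks

open Filter Topology MeasureTheory
open scoped NNReal ENNReal RealInnerProductSpace

namespace Vale.Agent.P124.H440

open NormedSpace

/-- The space of compact operators on `H`, with the operator norm. -/
def KT (H : Type*) [NormedAddCommGroup H] [InnerProductSpace ℝ H] : Type _ :=
  ↥(compactOperator (RingHom.id ℝ) H H)

section Inst

variable {H : Type*} [NormedAddCommGroup H] [InnerProductSpace ℝ H]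

noncomputable instance : NormedAddCommGroup (KT H) :=
  inferInstanceAs (NormedAddCommGroup ↥(compactOperator (RingHom.id ℝ) H H))

noncomputable instance : NormedSpace ℝ (KT H) :=
  inferInstanceAs (NormedSpace ℝ ↥(compactOperator (RingHom.id ℝ) H H))

instance : CoeOut (KT H) (H →L[ℝ] H) := ⟨fun S => S.1⟩

/-- The inclusion of the compact operators in the bounded operators. -/
noncomputable def ktL : KT H →ₗᵢ[ℝ] (H →L[ℝ] H) where
  toFun S := S.1
  map_add' _ _ := rfl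
  map_smul' _ _ := rfl
  norm_map' _ := rfl

end Inst

variable {H : Type*} [NormedAddCommGroup H] [InnerProductSpace ℝ H]

lemma kt_sum_apply {ι : Type*} (s : Finset ι) (S : ι → KT H) (x : H) :
    ((∑ i ∈ s, S i : KT H) : H →L[ℝ] H) x = ∑ i ∈ s, (S i : H →L[ℝ] H) x := by
  have h : ((∑ i ∈ s, S i : KT H) : H →L[ℝ] H) = ∑ i ∈ s, (S i : H →L[ℝ] H) :=
    map_sum (ktL (H := H)) S s
  rw [h, _root_.sum_apply]

lemma kop_norm (S : KT H) : ‖S‖ = ‖(S : H →L[ℝ] H)‖ := rfl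

lemma kop_norm_le {S : KT H} {C : ℝ} (hC : 0 ≤ C) (h : ∀ x, ‖(S : H →L[ℝ] H) x‖ ≤ C * ‖x‖) :
    ‖S‖ ≤ C := ContinuousLinearMap.opNorm_le_bound _ hC h

lemma kop_le (S : KT H) (x : H) : ‖(S : H →L[ℝ] H) x‖ ≤ ‖S‖ * ‖x‖ :=
  (S : H →L[ℝ] H).le_opNorm x

lemma kop_ext {S T : KT H} (h : ∀ x, (S : H →L[ℝ] H) x = (T : H →L[ℝ] H) x) : S = T :=
  Subtype.ext (ContinuousLinearMap.ext h)

/-- `S ↦ U S V` on compact operators. -/
noncomputable def cmp (U V : H →L[ℝ] H) : KT H →L[ℝ] KT H :=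
  LinearMap.mkContinuous
    { toFun := fun S => ⟨U.comp ((S : H →L[ℝ] H).comp V), (S.2.comp_clm V).clm_comp U⟩
      map_add' := fun S T => kop_ext fun x => by
        change U ((S : H →L[ℝ] H) (V x) + (T : H →L[ℝ] H) (V x)) = _
        rw [map_add]
        rfl
      map_smul' := fun c S => kop_ext fun x => by
        change U (c • (S : H →L[ℝ] H) (V x)) = _
        rw [map_smul]
        rfl } (‖U‖ * ‖V‖) (fun S => by
      refine kop_norm_le (by positivity) fun x => ?_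
      change ‖U ((S : H →L[ℝ] H) (V x))‖ ≤ _
      calc ‖U ((S : H →L[ℝ] H) (V x))‖ ≤ ‖U‖ * (‖S‖ * (‖V‖ * ‖x‖)) := by
            refine (U.le_opNorm _).trans ?_
            gcongr
            refine (kop_le S _).trans ?_
            gcongr
            exact V.le_opNorm x
        _ = ‖U‖ * ‖V‖ * ‖S‖ * ‖x‖ := by ring)

lemma cmp_apply (U V : H →L[ℝ] H) (S : KT H) (x : H) :
    ((cmp U V S : KT H) : H →L[ℝ] H) x = U ((S : H →L[ℝ] H) (V x)) := rfl

/-- The rank one operator `z ↦ ⟪y, z⟫ x`. -/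
noncomputable def rk (x y : H) : H →L[ℝ] H := (innerSL ℝ y).smulRight x

lemma rk_apply (x y z : H) : rk x y z = ⟪y, z⟫ • x := rfl

lemma norm_rk_le (x y : H) : ‖rk x y‖ ≤ ‖x‖ * ‖y‖ := by
  refine ContinuousLinearMap.opNorm_le_bound _ (by positivity) fun z => ?_
  rw [rk_apply, norm_smul]
  calc ‖⟪y, z⟫‖ * ‖x‖ ≤ (‖y‖ * ‖z‖) * ‖x‖ := by
        gcongr
        exact norm_inner_le_norm y z
    _ = ‖x‖ * ‖y‖ * ‖z‖ := by ring

lemma rk_compact (x y : H) : IsCompactOperator (rk x y) := by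
  have h : IsCompactOperator (innerSL ℝ y) :=
    isCompactOperator_of_locallyCompactSpace_dom (innerSL ℝ y)
  exact h.clm_comp ((ContinuousLinearMap.id ℝ ℝ).smulRight x)

/-- The rank one operator as a compact operator. -/
noncomputable def rkK (x y : H) : KT H := ⟨rk x y, rk_compact x y⟩

lemma rkK_apply (x y z : H) : ((rkK x y : KT H) : H →L[ℝ] H) z = ⟪y, z⟫ • x := rfl

lemma norm_rkK_le (x y : H) : ‖rkK x y‖ ≤ ‖x‖ * ‖y‖ := norm_rk_le x y

section Proj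

variable (b : HilbertBasis ℕ ℝ H)

/-- The projection onto the span of the first `n` basis vectors. -/
noncomputable def PP (n : ℕ) : H →L[ℝ] H := ∑ i ∈ Finset.range n, rk (b i) (b i)

/-- The complementary projection. -/
noncomputable def QQ (n : ℕ) : H →L[ℝ] H := ContinuousLinearMap.id ℝ H - PP b n

lemma PP_apply (n : ℕ) (x : H) : PP b n x = ∑ i ∈ Finset.range n, ⟪b i, x⟫ • b i := by
  unfold PP
  rw [_root_.sum_apply]
  rfl

lemma QQ_apply (n : ℕ) (x : H) : QQ b n x = x - PP b n x := rfl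

lemma inner_PP (i n : ℕ) (x : H) : ⟪b i, PP b n x⟫ = if i < n then ⟪b i, x⟫ else 0 := by
  rw [PP_apply, inner_sum]
  have h : ∀ j, ⟪b i, ⟪b j, x⟫ • b j⟫ = if i = j then ⟪b i, x⟫ else 0 := by
    intro j
    rw [inner_smul_right, orthonormal_iff_ite.1 b.orthonormal i j]
    split_ifs with hij
    · rw [hij, mul_one]
    · rw [mul_zero]
  simp only [h]
  rw [Finset.sum_ite_eq]
  simp [Finset.mem_range]

lemma inner_QQ (i n : ℕ) (x : H) : ⟪b i, QQ b n x⟫ = if i < n then 0 else ⟪b i, x⟫ := by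
  rw [QQ_apply, inner_sub_right, inner_PP]
  split_ifs <;> simp

lemma inner_PP_QQ {m n : ℕ} (h : m ≤ n) (x y : H) : ⟪PP b m x, QQ b n y⟫ = 0 := by
  rw [PP_apply, sum_inner]
  refine Finset.sum_eq_zero fun i hi => ?_
  rw [inner_smul_left, inner_QQ, if_pos ((Finset.mem_range.1 hi).trans_le h), mul_zero]

lemma norm_sq_PP_QQ (n : ℕ) (x : H) : ‖PP b n x‖ ^ 2 + ‖QQ b n x‖ ^ 2 = ‖x‖ ^ 2 := by
  have h := norm_add_sq_eq_norm_sq_add_norm_sq_real (inner_PP_QQ b (le_refl n) x x)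
  have e : PP b n x + QQ b n x = x := by rw [QQ_apply]; abel
  rw [e] at h
  nlinarith

lemma norm_PP_le (n : ℕ) (x : H) : ‖PP b n x‖ ≤ ‖x‖ := by
  have h := norm_sq_PP_QQ b n x
  have := sq_nonneg ‖QQ b n x‖
  exact le_of_sq_le_sq (by linarith) (norm_nonneg _)

lemma norm_QQ_le (n : ℕ) (x : H) : ‖QQ b n x‖ ≤ ‖x‖ := by
  have h := norm_sq_PP_QQ b n x
  have := sq_nonneg ‖PP b n x‖
  exact le_of_sq_le_sq (by linarith) (norm_nonneg _)

lemma tendsto_PP (x : H) : Tendsto (fun n => PP b n x) atTop (𝓝 x) := by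
  have h := (b.hasSum_repr x).tendsto_sum_nat
  refine h.congr fun n => ?_
  rw [PP_apply]
  refine Finset.sum_congr rfl fun i _ => ?_
  rw [b.repr_apply_apply]

lemma tendsto_QQ (x : H) : Tendsto (fun n => ‖QQ b n x‖) atTop (𝓝 0) := by
  have h := (tendsto_const_nhds (x := x)).sub (tendsto_PP b x)
  rw [sub_self] at h
  have h2 := h.norm
  rw [norm_zero] at h2
  exact h2

/-- `‖P S P + Q T Q‖ ≤ max ‖S‖ ‖T‖`. -/
lemma norm_PSP_add_QTQ (n : ℕ) (S T : KT H) :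
    ‖cmp (PP b n) (PP b n) S + cmp (QQ b n) (QQ b n) T‖ ≤ max ‖S‖ ‖T‖ := by
  refine kop_norm_le (le_max_of_le_left (norm_nonneg _)) fun x => ?_
  set m := max ‖S‖ ‖T‖ with hm
  have hm0 : 0 ≤ m := le_max_of_le_left (norm_nonneg _)
  change ‖PP b n ((S : H →L[ℝ] H) (PP b n x)) + QQ b n ((T : H →L[ℝ] H) (QQ b n x))‖ ≤ m * ‖x‖
  have h := norm_add_sq_eq_norm_sq_add_norm_sq_real
    (inner_PP_QQ b (le_refl n) ((S : H →L[ℝ] H) (PP b n x)) ((T : H →L[ℝ] H) (QQ b n x)))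
  have h1 : ‖PP b n ((S : H →L[ℝ] H) (PP b n x))‖ ≤ m * ‖PP b n x‖ := by
    refine (norm_PP_le b n _).trans ((kop_le S _).trans ?_)
    gcongr
    exact le_max_left _ _
  have h2 : ‖QQ b n ((T : H →L[ℝ] H) (QQ b n x))‖ ≤ m * ‖QQ b n x‖ := by
    refine (norm_QQ_le b n _).trans ((kop_le T _).trans ?_)
    gcongr
    exact le_max_right _ _
  have h3 := norm_sq_PP_QQ b n x
  have h4 : ‖PP b n ((S : H →L[ℝ] H) (PP b n x))‖ ^ 2 ≤ (m * ‖PP b n x‖) ^ 2 := by gcongr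
  have h5 : ‖QQ b n ((T : H →L[ℝ] H) (QQ b n x))‖ ^ 2 ≤ (m * ‖QQ b n x‖) ^ 2 := by gcongr
  refine le_of_sq_le_sq ?_ (by positivity)
  calc _ = ‖PP b n ((S : H →L[ℝ] H) (PP b n x))‖ ^ 2
        + ‖QQ b n ((T : H →L[ℝ] H) (QQ b n x))‖ ^ 2 := by nlinarith
    _ ≤ (m * ‖PP b n x‖) ^ 2 + (m * ‖QQ b n x‖) ^ 2 := add_le_add h4 h5
    _ = m ^ 2 * (‖PP b n x‖ ^ 2 + ‖QQ b n x‖ ^ 2) := by ring
    _ = (m * ‖x‖) ^ 2 := by rw [h3]; ring

/-- `Q_n S → 0` in norm for compact `S`. -/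
lemma tendsto_QS (S : KT H) :
    Tendsto (fun n => ‖cmp (QQ b n) (ContinuousLinearMap.id ℝ H) S‖) atTop (𝓝 0) := by
  rw [Metric.tendsto_atTop]
  intro ε hε
  have hc : IsCompact (closure ((S : H →L[ℝ] H) '' Metric.closedBall 0 1)) :=
    IsCompactOperator.isCompact_closure_image_closedBall (f := ((S : H →L[ℝ] H) : H →ₗ[ℝ] H)) S.2 1
  obtain ⟨t, -, ht, hcov⟩ := hc.finite_cover_balls (e := ε / 4) (by positivity)
  have hev : ∀ᶠ n in atTop, ∀ y ∈ t, ‖QQ b n y‖ ≤ ε / 4 :=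
    (ht.eventually_all).2 fun y _ => (tendsto_QQ b y).eventually_le_const (by positivity)
  obtain ⟨N, hN⟩ := hev.exists_forall_of_atTop
  refine ⟨N, fun n hn => ?_⟩
  rw [dist_zero_right, Real.norm_of_nonneg
    (norm_nonneg (cmp (QQ b n) (ContinuousLinearMap.id ℝ H) S))]
  refine lt_of_le_of_lt (b := ε / 2) ?_ (by linarith)
  have key : ∀ x : H, ‖x‖ ≤ 1 → ‖QQ b n ((S : H →L[ℝ] H) x)‖ ≤ ε / 2 := by
    intro x hx
    have hx' : (S : H →L[ℝ] H) x ∈ closure ((S : H →L[ℝ] H) '' Metric.closedBall 0 1) :=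
      subset_closure ⟨x, by simpa using hx, rfl⟩
    obtain ⟨y, hyt, hy⟩ := Set.mem_iUnion₂.1 (hcov hx')
    rw [Metric.mem_ball, dist_eq_norm] at hy
    calc ‖QQ b n ((S : H →L[ℝ] H) x)‖
        = ‖QQ b n ((S : H →L[ℝ] H) x - y) + QQ b n y‖ := by rw [← map_add]; congr 2; abel
      _ ≤ ‖QQ b n ((S : H →L[ℝ] H) x - y)‖ + ‖QQ b n y‖ := norm_add_le _ _
      _ ≤ ε / 4 + ε / 4 := add_le_add ((norm_QQ_le b n _).trans hy.le) (hN n hn y hyt)
      _ = ε / 2 := by ring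
  refine kop_norm_le (by positivity) fun x => ?_
  change ‖QQ b n ((S : H →L[ℝ] H) x)‖ ≤ ε / 2 * ‖x‖
  rcases eq_or_ne x 0 with rfl | hx
  · simp
  have hpos : 0 < ‖x‖ := norm_pos_iff.2 hx
  have h1 := key (‖x‖⁻¹ • x) (by
    rw [norm_smul, norm_inv, norm_norm, inv_mul_cancel₀ hpos.ne'])
  rw [map_smul, map_smul, norm_smul, norm_inv, norm_norm, inv_mul_le_iff₀ hpos] at h1
  linarith

variable [CompleteSpace H]

/-- `S Q_n → 0` in norm for compact `S`. -/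
lemma tendsto_SQ (S : KT H) :
    Tendsto (fun n => ‖cmp (ContinuousLinearMap.id ℝ H) (QQ b n) S‖) atTop (𝓝 0) := by
  rw [Metric.tendsto_atTop]
  intro ε hε
  obtain ⟨m, hm⟩ := ((tendsto_QS b S).eventually_le_const
    (show (0 : ℝ) < ε / 4 by positivity)).exists
  have hlim : Tendsto (fun n => ∑ i ∈ Finset.range m,
      ‖QQ b n (ContinuousLinearMap.adjoint (S : H →L[ℝ] H) (b i))‖) atTop (𝓝 0) := by
    have := tendsto_finsetSum (Finset.range m) (fun i _ =>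
      tendsto_QQ b (ContinuousLinearMap.adjoint (S : H →L[ℝ] H) (b i)))
    simpa using this
  obtain ⟨N, hN⟩ := (hlim.eventually_le_const
    (show (0 : ℝ) < ε / 4 by positivity)).exists_forall_of_atTop
  refine ⟨N, fun n hn => ?_⟩
  rw [dist_zero_right, Real.norm_of_nonneg
    (norm_nonneg (cmp (ContinuousLinearMap.id ℝ H) (QQ b n) S))]
  refine lt_of_le_of_lt (b := ε / 2) ?_ (by linarith)
  refine kop_norm_le (by positivity) fun x => ?_
  change ‖(S : H →L[ℝ] H) (QQ b n x)‖ ≤ ε / 2 * ‖x‖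
  have h1 : ‖QQ b m ((S : H →L[ℝ] H) (QQ b n x))‖ ≤ ε / 4 * ‖x‖ := by
    have := kop_le (cmp (QQ b m) (ContinuousLinearMap.id ℝ H) S) (QQ b n x)
    refine this.trans ?_
    gcongr
    exact norm_QQ_le b n x
  have hQsymm : ∀ y z : H, ⟪y, QQ b n z⟫ = ⟪QQ b n y, z⟫ := by
    intro y z
    have e1 : ⟪y, PP b n z⟫ = ∑ i ∈ Finset.range n, ⟪b i, z⟫ * ⟪y, b i⟫ := by
      rw [PP_apply, inner_sum]
      exact Finset.sum_congr rfl fun i _ => inner_smul_right _ _ _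
    have e2 : ⟪PP b n y, z⟫ = ∑ i ∈ Finset.range n, ⟪b i, y⟫ * ⟪b i, z⟫ := by
      rw [PP_apply, sum_inner]
      refine Finset.sum_congr rfl fun i _ => ?_
      rw [inner_smul_left]
      rfl
    rw [QQ_apply, QQ_apply, inner_sub_right, inner_sub_left, e1, e2]
    congr 1
    refine Finset.sum_congr rfl fun i _ => ?_
    rw [real_inner_comm (b i) y]
    ring
  have h2 : ‖PP b m ((S : H →L[ℝ] H) (QQ b n x))‖ ≤ ε / 4 * ‖x‖ := by
    rw [PP_apply]
    calc ‖∑ i ∈ Finset.range m, ⟪b i, (S : H →L[ℝ] H) (QQ b n x)⟫ • b i‖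
        ≤ ∑ i ∈ Finset.range m, ‖⟪b i, (S : H →L[ℝ] H) (QQ b n x)⟫ • b i‖ := norm_sum_le _ _
      _ ≤ ∑ i ∈ Finset.range m,
          ‖QQ b n (ContinuousLinearMap.adjoint (S : H →L[ℝ] H) (b i))‖ * ‖x‖ := by
          refine Finset.sum_le_sum fun i _ => ?_
          rw [norm_smul, b.orthonormal.1 i, mul_one,
            ← ContinuousLinearMap.adjoint_inner_left, hQsymm]
          exact norm_inner_le_norm _ _
      _ = (∑ i ∈ Finset.range m,
          ‖QQ b n (ContinuousLinearMap.adjoint (S : H →L[ℝ] H) (b i))‖) * ‖x‖ := by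
          rw [Finset.sum_mul]
      _ ≤ ε / 4 * ‖x‖ := by
          gcongr
          exact hN n hn
  calc ‖(S : H →L[ℝ] H) (QQ b n x)‖
      = ‖PP b m ((S : H →L[ℝ] H) (QQ b n x)) + QQ b m ((S : H →L[ℝ] H) (QQ b n x))‖ := by
        rw [QQ_apply b m]; congr 1; abel
    _ ≤ ε / 4 * ‖x‖ + ε / 4 * ‖x‖ := (norm_add_le _ _).trans (add_le_add h2 h1)
    _ = ε / 2 * ‖x‖ := by ring

omit [CompleteSpace H] in
lemma norm_cmp_le {U V : H →L[ℝ] H} (hU : ∀ x, ‖U x‖ ≤ ‖x‖) (hV : ∀ x, ‖V x‖ ≤ ‖x‖)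
    (S : KT H) : ‖cmp U V S‖ ≤ ‖S‖ := by
  refine kop_norm_le (norm_nonneg _) fun x => ?_
  change ‖U ((S : H →L[ℝ] H) (V x))‖ ≤ _
  calc ‖U ((S : H →L[ℝ] H) (V x))‖ ≤ ‖(S : H →L[ℝ] H) (V x)‖ := hU _
    _ ≤ ‖S‖ * ‖V x‖ := kop_le S _
    _ ≤ ‖S‖ * ‖x‖ := by
        gcongr
        exact hV x

omit [CompleteSpace H] in
/-- `S = P S P + Q S + P S Q`. -/
lemma cmp_decomp (n : ℕ) (S : KT H) :
    S = cmp (PP b n) (PP b n) S + cmp (QQ b n) (ContinuousLinearMap.id ℝ H) S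
      + cmp (PP b n) (QQ b n) S := by
  refine kop_ext fun x => ?_
  change (S : H →L[ℝ] H) x = PP b n ((S : H →L[ℝ] H) (PP b n x))
    + QQ b n ((S : H →L[ℝ] H) x) + PP b n ((S : H →L[ℝ] H) (QQ b n x))
  have e1 : (S : H →L[ℝ] H) (PP b n x) = (S : H →L[ℝ] H) x - (S : H →L[ℝ] H) (QQ b n x) := by
    rw [← map_sub, QQ_apply]
    congr 1
    abel
  rw [e1, map_sub, QQ_apply b n ((S : H →L[ℝ] H) x)]
  abel

lemma tendsto_PSP (S : KT H) :
    Tendsto (fun n => cmp (PP b n) (PP b n) S) atTop (𝓝 S) := by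
  rw [tendsto_iff_norm_sub_tendsto_zero]
  have h := (tendsto_QS b S).add (tendsto_SQ b S)
  rw [add_zero] at h
  refine squeeze_zero (fun n => norm_nonneg _) (fun n => ?_) h
  have e : cmp (PP b n) (PP b n) S - S = -(cmp (QQ b n) (ContinuousLinearMap.id ℝ H) S
      + cmp (PP b n) (QQ b n) S) := by
    conv_lhs => rw [cmp_decomp b n S]
    have e2 : cmp (PP b n) (PP b n) (cmp (PP b n) (PP b n) S
        + cmp (QQ b n) (ContinuousLinearMap.id ℝ H) S + cmp (PP b n) (QQ b n) S)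
        = cmp (PP b n) (PP b n) S := by rw [← cmp_decomp b n S]
    rw [e2]
    abel
  rw [e, norm_neg]
  refine (norm_add_le _ _).trans (add_le_add le_rfl ?_)
  have e3 : cmp (PP b n) (QQ b n) S
      = cmp (PP b n) (ContinuousLinearMap.id ℝ H) (cmp (ContinuousLinearMap.id ℝ H) (QQ b n) S) :=
    rfl
  rw [e3]
  exact norm_cmp_le (norm_PP_le b n) (fun x => le_rfl) _

end Proj

end Vale.Agent.P124.H440
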