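import Mathlib
import Vale.Agent.P124.H440.KH

open Filter Topology MeasureTheory
open scoped NNReal ENNReal RealInnerProductSpace

namespace Vale.Agent.P124.H440

open NormedSpace

section Rep

variable {Z : Type*} [NormedAddCommGroup Z] [NormedSpace ℝ Z]

/-- The second adjoint of `C` maps the bidual into `Z`. -/
def Rep (C : Z →L[ℝ] Z) : Prop :=
  ∀ T : StrongDual ℝ (StrongDual ℝ Z), ∃ z : Z, ∀ ω : StrongDual ℝ Z, T (ω.comp C) = ω z

lemma Rep.of_factor {R : Type*} [NormedAddCommGroup R] [NormedSpace ℝ R] (hR : Reflex R)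
    (q : Z →L[ℝ] R) (j : R →L[ℝ] Z) : Rep (j.comp q) := by
  intro T
  let ρ : StrongDual ℝ (StrongDual ℝ R) := LinearMap.mkContinuous
    { toFun := fun f => T (f.comp q)
      map_add' := fun f g => by
        rw [← map_add]
        rfl
      map_smul' := fun c f => by
        rw [RingHom.id_apply, ← map_smul]
        rfl } (‖T‖ * ‖q‖)
    (fun f => by
      refine (T.le_opNorm _).trans ?_
      rw [mul_assoc, mul_comm ‖q‖]
      gcongr
      exact ContinuousLinearMap.opNorm_comp_le _ _)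
  obtain ⟨r, hr⟩ := hR ρ
  refine ⟨j r, fun ω => ?_⟩
  change T (ω.comp (j.comp q)) = (ω.comp j) r
  have h1 : ρ (ω.comp j) = (ω.comp j) r := by
    rw [← hr]
    rfl
  rw [← h1]
  rfl

lemma Rep.add {C D : Z →L[ℝ] Z} (hC : Rep C) (hD : Rep D) : Rep (C + D) := by
  intro T
  obtain ⟨z, hz⟩ := hC T
  obtain ⟨w, hw⟩ := hD T
  refine ⟨z + w, fun ω => ?_⟩
  rw [map_add, ← hz, ← hw, ← map_add]
  congr 1
  ext x
  change ω (C x + D x) = ω (C x) + ω (D x)
  rw [map_add]

lemma Rep.zero : Rep (0 : Z →L[ℝ] Z) := by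
  intro T
  refine ⟨0, fun ω => ?_⟩
  have : ω.comp (0 : Z →L[ℝ] Z) = 0 := by
    ext x
    change ω 0 = 0
    exact map_zero ω
  rw [this, map_zero, map_zero]

lemma Rep.sum {ι : Type*} (s : Finset ι) (C : ι → Z →L[ℝ] Z) (h : ∀ i, Rep (C i)) :
    Rep (∑ i ∈ s, C i) := by
  classical
  induction s using Finset.induction_on with
  | empty => exact Rep.zero
  | insert a s ha ih =>
    rw [Finset.sum_insert ha]
    exact (h a).add ih

/-- A criterion for `‖ω ∘ C n‖ → 0`. -/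
lemma tendsto_of_l2 (ω : StrongDual ℝ Z) (C : ℕ → Z →L[ℝ] Z)
    (hC : ∀ ε > 0, ∃ S₀ : Z, ‖ω‖ - ε ≤ ω S₀ ∧ ∀ᶠ n in atTop, ∀ R : Z, ‖R‖ ≤ 1 →
      ∀ α β : ℝ, 0 ≤ α → 0 ≤ β → α ^ 2 + β ^ 2 = 1 → ‖α • S₀ + β • C n R‖ ≤ 1) :
    Tendsto (fun n => ‖ω.comp (C n)‖) atTop (𝓝 0) := by
  rw [Metric.tendsto_atTop]
  intro η hη
  -- choose `β`
  let β : ℝ := min 1 (η / (4 * (‖ω‖ + 1)))
  have hβ0 : 0 < β := lt_min one_pos (by positivity)
  have hβ1 : β ≤ 1 := min_le_left _ _
  have hβω : β * ‖ω‖ ≤ η / 4 := by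
    calc β * ‖ω‖ ≤ (η / (4 * (‖ω‖ + 1))) * (‖ω‖ + 1) := by
          gcongr
          · exact min_le_right _ _
          · linarith
      _ = η / 4 := by field_simp
  obtain ⟨S₀, hS₁, hev⟩ := hC (β * η / 4) (by positivity)
  obtain ⟨N, hN⟩ := hev.exists_forall_of_atTop
  refine ⟨N, fun n hn => ?_⟩
  rw [dist_zero_right, Real.norm_of_nonneg (norm_nonneg (ω.comp (C n)))]
  refine lt_of_le_of_lt (b := η / 2) ?_ (by linarith)
  have hα2 : 0 ≤ 1 - β ^ 2 := by nlinarith
  set α := Real.sqrt (1 - β ^ 2) with hα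
  have hα0 : 0 ≤ α := Real.sqrt_nonneg _
  have hαsq : α ^ 2 = 1 - β ^ 2 := Real.sq_sqrt hα2
  have hα1 : α ≤ 1 := by nlinarith
  have hαβ : 1 - β ^ 2 ≤ α := by nlinarith
  have key : ∀ R : Z, ‖R‖ ≤ 1 → ω (C n R) ≤ η / 2 := by
    intro R hR
    have h1 := hN n hn R hR α β hα0 hβ0.le (by rw [hαsq]; ring)
    have h2 : ω (α • S₀ + β • C n R) ≤ ‖ω‖ := by
      calc ω (α • S₀ + β • C n R) ≤ ‖ω (α • S₀ + β • C n R)‖ := Real.le_norm_self _
        _ ≤ ‖ω‖ * ‖α • S₀ + β • C n R‖ := ω.le_opNorm _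
        _ ≤ ‖ω‖ * 1 := by gcongr
        _ = ‖ω‖ := mul_one _
    rw [map_add, map_smul, map_smul, smul_eq_mul, smul_eq_mul] at h2
    have h3 : α * (‖ω‖ - β * η / 4) ≤ α * ω S₀ := by gcongr
    have h4 : (1 - β ^ 2) * ‖ω‖ ≤ α * ‖ω‖ := by gcongr
    have h5 : α * (β * η / 4) ≤ 1 * (β * η / 4) := by gcongr
    have h6 : β * ω (C n R) ≤ β * (β * ‖ω‖ + η / 4) := by nlinarith
    have h7 : ω (C n R) ≤ β * ‖ω‖ + η / 4 := le_of_mul_le_mul_left h6 hβ0
    linarith
  refine le_of_forall_pos_le_add fun ε hε => ?_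
  obtain ⟨R, hR1, hR2⟩ := exists_almost_norming (ω.comp (C n)) hε
  have := key R hR1
  change ‖ω.comp (C n)‖ - ε ≤ ω (C n R) at hR2
  linarith

end Rep

variable {H : Type*} [NormedAddCommGroup H] [InnerProductSpace ℝ H] [CompleteSpace H]

/-- Hilbert spaces are reflexive. -/
lemma reflex_hilbert : Reflex H := by
  intro Λ
  let f : StrongDual ℝ H := LinearMap.mkContinuous
    { toFun := fun a => Λ (innerSL ℝ a)
      map_add' := fun a a' => by rw [map_add, map_add]
      map_smul' := fun c a => by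
        rw [RingHom.id_apply, ← map_smul]
        congr 1
        ext x
        change ⟪c • a, x⟫ = c * ⟪a, x⟫
        rw [real_inner_smul_left] } ‖Λ‖
    (fun a => by
      refine (Λ.le_opNorm _).trans_eq ?_
      rw [innerSL_apply_norm])
  refine ⟨(InnerProductSpace.toDual ℝ H).symm f, ?_⟩
  ext g
  obtain ⟨a, rfl⟩ := (InnerProductSpace.toDual ℝ H).surjective g
  change ⟪a, (InnerProductSpace.toDual ℝ H).symm f⟫ = _
  rw [real_inner_comm, InnerProductSpace.toDual_symm_apply]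
  rfl

section Proj

variable (b : HilbertBasis ℕ ℝ H)

/-- `a ↦ rk x a`. -/
noncomputable def rkR (x : H) : H →L[ℝ] KT H :=
  LinearMap.mkContinuous
    { toFun := fun a => rkK x a
      map_add' := fun a a' => kop_ext fun z => by
        change ⟪a + a', z⟫ • x = ⟪a, z⟫ • x + ⟪a', z⟫ • x
        rw [inner_add_left, add_smul]
      map_smul' := fun c a => kop_ext fun z => by
        change ⟪c • a, z⟫ • x = c • (⟪a, z⟫ • x)
        rw [real_inner_smul_left, smul_smul] } ‖x‖ (fun a => norm_rkK_le x a)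

/-- `a ↦ rk a y`. -/
noncomputable def rkL (y : H) : H →L[ℝ] KT H :=
  LinearMap.mkContinuous
    { toFun := fun a => rkK a y
      map_add' := fun a a' => kop_ext fun z => by
        change ⟪y, z⟫ • (a + a') = ⟪y, z⟫ • a + ⟪y, z⟫ • a'
        rw [smul_add]
      map_smul' := fun c a => kop_ext fun z => by
        change ⟪y, z⟫ • (c • a) = c • (⟪y, z⟫ • a)
        rw [smul_comm] } ‖y‖ (fun a => by rw [mul_comm]; exact norm_rkK_le a y)

/-- `S ↦ S y`. -/
noncomputable def evK (y : H) : KT H →L[ℝ] H :=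
  LinearMap.mkContinuous
    { toFun := fun S => (S : H →L[ℝ] H) y
      map_add' := fun S T => rfl
      map_smul' := fun c S => rfl } ‖y‖ (fun S => by
        rw [mul_comm]
        exact kop_le S y)

/-- `S ↦ S* y`. -/
noncomputable def evAd (y : H) : KT H →L[ℝ] H :=
  LinearMap.mkContinuous
    { toFun := fun S => ContinuousLinearMap.adjoint (S : H →L[ℝ] H) y
      map_add' := fun S T => by
        change ContinuousLinearMap.adjoint ((S : H →L[ℝ] H) + (T : H →L[ℝ] H)) y = _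
        rw [map_add]
        rfl
      map_smul' := fun c S => by
        change ContinuousLinearMap.adjoint (c • (S : H →L[ℝ] H)) y = _
        rw [map_smulₛₗ]
        rfl } ‖y‖ (fun S => by
        refine ((ContinuousLinearMap.adjoint (S : H →L[ℝ] H)).le_opNorm y).trans_eq ?_
        rw [LinearIsometryEquiv.norm_map, mul_comm]
        rfl)

lemma rep_rk_left (x y : H) : Rep (cmp (rk x y) (ContinuousLinearMap.id ℝ H)) := by
  have e : cmp (rk x y) (ContinuousLinearMap.id ℝ H) = (rkR x).comp (evAd y) := by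
    refine ContinuousLinearMap.ext fun S => kop_ext fun z => ?_
    change ⟪y, (S : H →L[ℝ] H) z⟫ • x = ⟪ContinuousLinearMap.adjoint (S : H →L[ℝ] H) y, z⟫ • x
    rw [ContinuousLinearMap.adjoint_inner_left]
  rw [e]
  exact Rep.of_factor reflex_hilbert _ _

lemma rep_rk_right (U : H →L[ℝ] H) (x y : H) : Rep (cmp U (rk x y)) := by
  have e : cmp U (rk x y) = ((rkL y).comp U).comp (evK x) := by
    refine ContinuousLinearMap.ext fun S => kop_ext fun z => ?_
    change U ((S : H →L[ℝ] H) (⟪y, z⟫ • x)) = ⟪y, z⟫ • U ((S : H →L[ℝ] H) x)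
    rw [map_smul, map_smul]
  rw [e]
  exact Rep.of_factor reflex_hilbert _ _

omit [CompleteSpace H] in
lemma cmp_PP_left (n : ℕ) (V : H →L[ℝ] H) :
    cmp (PP b n) V = ∑ i ∈ Finset.range n, cmp (rk (b i) (b i)) V := by
  refine ContinuousLinearMap.ext fun S => ?_
  rw [_root_.sum_apply]
  refine kop_ext fun x => ?_
  rw [kt_sum_apply, cmp_apply, PP_apply]
  rfl

omit [CompleteSpace H] in
lemma cmp_PP_right (n : ℕ) (U : H →L[ℝ] H) :
    cmp U (PP b n) = ∑ i ∈ Finset.range n, cmp U (rk (b i) (b i)) := by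
  refine ContinuousLinearMap.ext fun S => ?_
  rw [_root_.sum_apply]
  refine kop_ext fun x => ?_
  rw [kt_sum_apply, cmp_apply, PP_apply, map_sum, map_sum]
  rfl

include b in
/-- The space of compact operators on a separable Hilbert space is M-embedded. -/
theorem memb_kop : MEmb (KT H) := by
  refine memb_of_blocks (A := fun n => cmp (PP b n) (PP b n)) (B := fun n => cmp (QQ b n) (QQ b n))
    (norm_PSP_add_QTQ b) (tendsto_PSP b) fun n T => ?_
  have hrep : Rep (cmp (PP b n) (ContinuousLinearMap.id ℝ H) + cmp (QQ b n) (PP b n)) := by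
    refine Rep.add ?_ ?_
    · rw [cmp_PP_left]
      exact Rep.sum _ _ fun i => rep_rk_left _ _
    · rw [cmp_PP_right]
      exact Rep.sum _ _ fun i => rep_rk_right _ _ _
  obtain ⟨z, hz⟩ := hrep T
  refine ⟨z, fun ω => ?_⟩
  rw [← hz ω, eq_sub_iff_add_eq, ← map_add]
  congr 1
  refine ContinuousLinearMap.ext fun S => ?_
  change ω (cmp (QQ b n) (QQ b n) S) + ω ((cmp (PP b n) (ContinuousLinearMap.id ℝ H)
    + cmp (QQ b n) (PP b n)) S) = ω S
  rw [← map_add]
  congr 1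
  refine kop_ext fun x => ?_
  change QQ b n ((S : H →L[ℝ] H) (QQ b n x)) + (PP b n ((S : H →L[ℝ] H) x)
    + QQ b n ((S : H →L[ℝ] H) (PP b n x))) = (S : H →L[ℝ] H) x
  have e1 : (S : H →L[ℝ] H) (PP b n x) = (S : H →L[ℝ] H) x - (S : H →L[ℝ] H) (QQ b n x) := by
    rw [← map_sub, QQ_apply]
    congr 1
    abel
  rw [e1, map_sub, QQ_apply b n ((S : H →L[ℝ] H) x)]
  abel

end Proj

end Vale.Agent.P124.H440
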