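import Mathlib
import Vale.Agent.P124.H440.KHdual
import Vale.Agent.P124.R2.H124.Pelc

open Filter Topology MeasureTheory
open scoped NNReal ENNReal RealInnerProductSpace

namespace Vale.Agent.P124.H440

open NormedSpace Vale.Agent.P124.R2

variable {H : Type*} [NormedAddCommGroup H] [InnerProductSpace ℝ H]

section Sep

variable (b : HilbertBasis ℕ ℝ H)

lemma PP_PP {m n : ℕ} (h : m ≤ n) (x : H) : PP b m (PP b n x) = PP b m x := by
  rw [PP_apply b m, PP_apply b m]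
  refine Finset.sum_congr rfl fun i hi => ?_
  rw [inner_PP, if_pos ((Finset.mem_range.1 hi).trans_le h)]

lemma norm_sq_le {m n : ℕ} (h : m ≤ n) (x : H) :
    ‖PP b m x‖ ^ 2 + ‖QQ b n x‖ ^ 2 ≤ ‖x‖ ^ 2 := by
  have h1 : ‖PP b m x‖ ≤ ‖PP b n x‖ := by
    rw [← PP_PP b h]
    exact norm_PP_le b m _
  have h2 := norm_sq_PP_QQ b n x
  have h3 : ‖PP b m x‖ ^ 2 ≤ ‖PP b n x‖ ^ 2 := by gcongr
  linarith

lemma exists_finite_norming [CompleteSpace H] (ω : StrongDual ℝ (KT H)) {ε : ℝ} (hε : 0 < ε) :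
    ∃ (m : ℕ) (S : KT H), ‖S‖ ≤ 1 ∧ ‖ω‖ - ε ≤ ω (cmp (PP b m) (PP b m) S) := by
  obtain ⟨S, hS1, hS2⟩ := exists_almost_norming ω (ε := ε / 2) (by positivity)
  have h1 : Tendsto (fun n => ω (cmp (PP b n) (PP b n) S)) atTop (𝓝 (ω S)) :=
    (ω.continuous.tendsto S).comp (tendsto_PSP b S)
  obtain ⟨m, hm⟩ := (h1.eventually (lt_mem_nhds (show ω S - ε / 2 < ω S by linarith))).exists
  exact ⟨m, S, hS1, by linarith⟩

lemma tendsto_omega_Q_left [CompleteSpace H] (ω : StrongDual ℝ (KT H)) :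
    Tendsto (fun n => ‖ω.comp (cmp (QQ b n) (ContinuousLinearMap.id ℝ H))‖) atTop (𝓝 0) := by
  refine tendsto_of_l2 ω _ fun ε hε => ?_
  obtain ⟨m, S, hS1, hS2⟩ := exists_finite_norming b ω hε
  refine ⟨_, hS2, ?_⟩
  filter_upwards [eventually_ge_atTop m] with n hn R hR α β hα hβ hαβ
  refine kop_norm_le zero_le_one fun x => ?_
  change ‖α • PP b m ((S : H →L[ℝ] H) (PP b m x)) + β • QQ b n ((R : H →L[ℝ] H) x)‖ ≤ 1 * ‖x‖
  rw [one_mul]
  have h := norm_add_sq_eq_norm_sq_add_norm_sq_real (x := α • PP b m ((S : H →L[ℝ] H) (PP b m x)))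
    (y := β • QQ b n ((R : H →L[ℝ] H) x)) (by
      rw [inner_smul_left, inner_smul_right, inner_PP_QQ b hn]
      simp)
  have h1 : ‖α • PP b m ((S : H →L[ℝ] H) (PP b m x))‖ ≤ α * ‖x‖ := by
    rw [norm_smul, Real.norm_of_nonneg hα]
    gcongr
    calc ‖PP b m ((S : H →L[ℝ] H) (PP b m x))‖ ≤ ‖(S : H →L[ℝ] H) (PP b m x)‖ := norm_PP_le b _ _
      _ ≤ ‖S‖ * ‖PP b m x‖ := kop_le S _
      _ ≤ 1 * ‖x‖ := by
          gcongr
          exact norm_PP_le b m x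
      _ = ‖x‖ := one_mul _
  have h2 : ‖β • QQ b n ((R : H →L[ℝ] H) x)‖ ≤ β * ‖x‖ := by
    rw [norm_smul, Real.norm_of_nonneg hβ]
    gcongr
    calc ‖QQ b n ((R : H →L[ℝ] H) x)‖ ≤ ‖(R : H →L[ℝ] H) x‖ := norm_QQ_le b _ _
      _ ≤ ‖R‖ * ‖x‖ := kop_le R _
      _ ≤ 1 * ‖x‖ := by gcongr
      _ = ‖x‖ := one_mul _
  refine le_of_sq_le_sq ?_ (norm_nonneg _)
  have h3 : ‖α • PP b m ((S : H →L[ℝ] H) (PP b m x))‖ ^ 2 ≤ (α * ‖x‖) ^ 2 := by gcongr
  have h4 : ‖β • QQ b n ((R : H →L[ℝ] H) x)‖ ^ 2 ≤ (β * ‖x‖) ^ 2 := by gcongr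
  have h5 : (α * ‖x‖) ^ 2 + (β * ‖x‖) ^ 2 = ‖x‖ ^ 2 := by
    rw [mul_pow, mul_pow, ← add_mul, hαβ, one_mul]
  nlinarith

lemma tendsto_omega_Q_right [CompleteSpace H] (ω : StrongDual ℝ (KT H)) :
    Tendsto (fun n => ‖ω.comp (cmp (ContinuousLinearMap.id ℝ H) (QQ b n))‖) atTop (𝓝 0) := by
  refine tendsto_of_l2 ω _ fun ε hε => ?_
  obtain ⟨m, S, hS1, hS2⟩ := exists_finite_norming b ω hε
  refine ⟨_, hS2, ?_⟩
  filter_upwards [eventually_ge_atTop m] with n hn R hR α β hα hβ hαβ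
  refine kop_norm_le zero_le_one fun x => ?_
  change ‖α • PP b m ((S : H →L[ℝ] H) (PP b m x)) + β • (R : H →L[ℝ] H) (QQ b n x)‖ ≤ 1 * ‖x‖
  rw [one_mul]
  have h1 : ‖α • PP b m ((S : H →L[ℝ] H) (PP b m x))‖ ≤ α * ‖PP b m x‖ := by
    rw [norm_smul, Real.norm_of_nonneg hα]
    gcongr
    calc ‖PP b m ((S : H →L[ℝ] H) (PP b m x))‖ ≤ ‖(S : H →L[ℝ] H) (PP b m x)‖ := norm_PP_le b _ _
      _ ≤ ‖S‖ * ‖PP b m x‖ := kop_le S _
      _ ≤ 1 * ‖PP b m x‖ := by gcongr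
      _ = ‖PP b m x‖ := one_mul _
  have h2 : ‖β • (R : H →L[ℝ] H) (QQ b n x)‖ ≤ β * ‖QQ b n x‖ := by
    rw [norm_smul, Real.norm_of_nonneg hβ]
    gcongr
    calc ‖(R : H →L[ℝ] H) (QQ b n x)‖ ≤ ‖R‖ * ‖QQ b n x‖ := kop_le R _
      _ ≤ 1 * ‖QQ b n x‖ := by gcongr
      _ = ‖QQ b n x‖ := one_mul _
  have h3 := norm_sq_le b hn x
  refine (norm_add_le _ _).trans ((add_le_add h1 h2).trans ?_)
  refine le_of_sq_le_sq ?_ (norm_nonneg _)
  refine le_trans ?_ h3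
  have h4 : (α * ‖PP b m x‖ + β * ‖QQ b n x‖) ^ 2 + (α * ‖QQ b n x‖ - β * ‖PP b m x‖) ^ 2
      = (α ^ 2 + β ^ 2) * (‖PP b m x‖ ^ 2 + ‖QQ b n x‖ ^ 2) := by ring
  rw [hαβ, one_mul] at h4
  nlinarith [sq_nonneg (α * ‖QQ b n x‖ - β * ‖PP b m x‖)]

lemma tendsto_omega_PP [CompleteSpace H] (ω : StrongDual ℝ (KT H)) :
    Tendsto (fun n => ω.comp (cmp (PP b n) (PP b n))) atTop (𝓝 ω) := by
  rw [tendsto_iff_norm_sub_tendsto_zero]
  have h := (tendsto_omega_Q_left b ω).add (tendsto_omega_Q_right b ω)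
  rw [add_zero] at h
  refine squeeze_zero (fun n => norm_nonneg _) (fun n => ?_) h
  refine ContinuousLinearMap.opNorm_le_bound _ (by positivity) fun S => ?_
  have e : (ω.comp (cmp (PP b n) (PP b n)) - ω) S
      = -((ω.comp (cmp (QQ b n) (ContinuousLinearMap.id ℝ H))) S
        + (ω.comp (cmp (ContinuousLinearMap.id ℝ H) (QQ b n)))
          (cmp (PP b n) (ContinuousLinearMap.id ℝ H) S)) := by
    change ω (cmp (PP b n) (PP b n) S) - ω S = -(ω (cmp (QQ b n) (ContinuousLinearMap.id ℝ H) S)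
      + ω (cmp (PP b n) (QQ b n) S))
    have e2 : ω S = ω (cmp (PP b n) (PP b n) S)
        + ω (cmp (QQ b n) (ContinuousLinearMap.id ℝ H) S) + ω (cmp (PP b n) (QQ b n) S) := by
      rw [← map_add, ← map_add, ← cmp_decomp b n S]
    linarith
  rw [e, norm_neg]
  refine (norm_add_le _ _).trans ?_
  rw [add_mul]
  refine add_le_add (ContinuousLinearMap.le_opNorm _ _) ?_
  refine (ContinuousLinearMap.le_opNorm _ _).trans ?_
  gcongr
  exact norm_cmp_le (norm_PP_le b n) (fun x => le_rfl) S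

/-- The matrix coefficients. -/
noncomputable def coef (i j : ℕ) : StrongDual ℝ (KT H) := (innerSL ℝ (b i)).comp (evK (b j))

lemma cmp_PP_PP (n : ℕ) (S : KT H) : cmp (PP b n) (PP b n) S
    = ∑ i ∈ Finset.range n, ∑ j ∈ Finset.range n, coef b i j S • rkK (b i) (b j) := by
  refine kop_ext fun x => ?_
  rw [kt_sum_apply, cmp_apply, PP_apply b n ((S : H →L[ℝ] H) _)]
  refine Finset.sum_congr rfl fun i _ => ?_
  rw [kt_sum_apply, PP_apply, map_sum, inner_sum, Finset.sum_smul]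
  refine Finset.sum_congr rfl fun j _ => ?_
  change ⟪b i, (S : H →L[ℝ] H) (⟪b j, x⟫ • b j)⟫ • b i
    = ⟪b i, (S : H →L[ℝ] H) (b j)⟫ • (⟪b j, x⟫ • b i)
  rw [map_smul, inner_smul_right, smul_smul, mul_comm]

include b in
/-- The dual of the space of compact operators on a separable Hilbert space is separable. -/
theorem separable_dual_kop [CompleteSpace H] :
    TopologicalSpace.SeparableSpace (StrongDual ℝ (KT H)) := by
  rw [← TopologicalSpace.isSeparable_univ_iff]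
  let D : Set (StrongDual ℝ (KT H)) := Set.range fun p : ℕ × ℕ => coef b p.1 p.2
  have hD : TopologicalSpace.IsSeparable D := (Set.countable_range _).isSeparable
  have hspan : TopologicalSpace.IsSeparable (Submodule.span ℝ D : Set (StrongDual ℝ (KT H))) :=
    hD.span
  refine hspan.closure.mono fun ω _ => ?_
  refine mem_closure_of_tendsto (tendsto_omega_PP b ω) (Eventually.of_forall fun n => ?_)
  have e : ω.comp (cmp (PP b n) (PP b n)) = ∑ i ∈ Finset.range n, ∑ j ∈ Finset.range n,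
      ω (rkK (b i) (b j)) • coef b i j := by
    refine ContinuousLinearMap.ext fun S => ?_
    rw [_root_.sum_apply]
    change ω (cmp (PP b n) (PP b n) S) = _
    rw [cmp_PP_PP, map_sum]
    refine Finset.sum_congr rfl fun i _ => ?_
    rw [map_sum, _root_.sum_apply]
    refine Finset.sum_congr rfl fun j _ => ?_
    rw [map_smul]
    change coef b i j S * ω (rkK (b i) (b j)) = ω (rkK (b i) (b j)) * coef b i j S
    ring
  rw [e]
  refine Submodule.sum_mem _ fun i _ => Submodule.sum_mem _ fun j _ => ?_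
  exact Submodule.smul_mem _ _ (Submodule.subset_span ⟨(i, j), rfl⟩)

end Sep

end Vale.Agent.P124.H440
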