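import Mathlib
import Vale.Agent.P124.H440.KHsep

open Filter Topology MeasureTheory
open scoped NNReal ENNReal RealInnerProductSpace

namespace Vale.Agent.P124.H440

open NormedSpace Vale.Agent.P124.R2

variable {H : Type*} [NormedAddCommGroup H] [InnerProductSpace ℝ H] [CompleteSpace H]

section Shift

variable (b : HilbertBasis ℕ ℝ H)

omit [CompleteSpace H] in
lemma orthonormal_pair (k : ℕ) : Orthonormal ℝ (fun j => b (Nat.pair k j)) :=
  b.orthonormal.comp _ (fun _ _ h => (Nat.pair_eq_pair.1 h).2)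

/-- The isometry of `H` onto the span of the `k`-th block of basis vectors. -/
noncomputable def VV (k : ℕ) : H →ₗᵢ[ℝ] H :=
  (orthonormal_pair b k).orthogonalFamily.linearIsometry.comp b.repr.toLinearIsometry

lemma VV_basis (k j : ℕ) : VV b k (b j) = b (Nat.pair k j) := by
  change (orthonormal_pair b k).orthogonalFamily.linearIsometry (b.repr (b j)) = _
  rw [b.repr_self, OrthogonalFamily.linearIsometry_apply_single]
  simp

omit [CompleteSpace H] in
lemma eq_zero_of_basis {f : H →L[ℝ] ℝ} (h : ∀ j, f (b j) = 0) (x : H) : f x = 0 := by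
  have h1 := (b.hasSum_repr x).mapL f
  have h2 : (fun j => f (b.repr x j • b j)) = fun _ => 0 := by
    funext j
    rw [map_smul, h, smul_zero]
  rw [h2] at h1
  exact h1.unique hasSum_zero

lemma inner_VV {k l : ℕ} (h : k ≠ l) (x y : H) : ⟪VV b k x, VV b l y⟫ = 0 := by
  have h1 : ∀ i, ⟪b (Nat.pair k i), VV b l y⟫ = 0 := by
    intro i
    refine eq_zero_of_basis b (f := (innerSL ℝ (b (Nat.pair k i))).comp
      (VV b l).toContinuousLinearMap) (fun j => ?_) y
    change ⟪b (Nat.pair k i), VV b l (b j)⟫ = 0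
    rw [VV_basis, orthonormal_iff_ite.1 b.orthonormal, if_neg]
    intro h2
    exact h (Nat.pair_eq_pair.1 h2).1
  have h2 := eq_zero_of_basis b (f := (innerSL ℝ (VV b l y)).comp
      (VV b k).toContinuousLinearMap) (fun i => by
    change ⟪VV b l y, VV b k (b i)⟫ = 0
    rw [VV_basis, real_inner_comm]
    exact h1 i) x
  rw [real_inner_comm]
  exact h2

/-- The adjoint of `VV`. -/
noncomputable def WW (k : ℕ) : H →L[ℝ] H :=
  ContinuousLinearMap.adjoint (VV b k).toContinuousLinearMap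

lemma inner_WW (k : ℕ) (x y : H) : ⟪WW b k x, y⟫ = ⟪x, VV b k y⟫ :=
  ContinuousLinearMap.adjoint_inner_left _ _ _

lemma WW_VV_self (k : ℕ) (x : H) : WW b k (VV b k x) = x := by
  refine ext_inner_right ℝ fun y => ?_
  rw [inner_WW, LinearIsometry.inner_map_map]

lemma WW_VV_ne {k l : ℕ} (h : k ≠ l) (x : H) : WW b k (VV b l x) = 0 := by
  refine ext_inner_right ℝ fun y => ?_
  rw [inner_WW, inner_zero_left, inner_VV b h.symm]

lemma norm_sum_VV (s : Finset ℕ) (f : ℕ → H) :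
    ‖∑ k ∈ s, VV b k (f k)‖ ^ 2 = ∑ k ∈ s, ‖f k‖ ^ 2 := by
  rw [← real_inner_self_eq_norm_sq, sum_inner]
  refine Finset.sum_congr rfl fun k hk => ?_
  rw [inner_sum, Finset.sum_eq_single k]
  · rw [real_inner_self_eq_norm_sq, LinearIsometry.norm_map]
  · intro l _ hl
    exact inner_VV b hl.symm _ _
  · intro h
    exact absurd hk h

lemma bessel_WW (s : Finset ℕ) (x : H) : ∑ k ∈ s, ‖WW b k x‖ ^ 2 ≤ ‖x‖ ^ 2 := by
  set y := ∑ k ∈ s, VV b k (WW b k x) with hy
  have h1 : ‖y‖ ^ 2 = ∑ k ∈ s, ‖WW b k x‖ ^ 2 := norm_sum_VV b s _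
  have h2 : ⟪x, y⟫ = ∑ k ∈ s, ‖WW b k x‖ ^ 2 := by
    rw [hy, inner_sum]
    refine Finset.sum_congr rfl fun k _ => ?_
    rw [← inner_WW, real_inner_self_eq_norm_sq]
  have h3 : ‖y‖ ^ 2 ≤ ‖x‖ * ‖y‖ := by
    rw [h1, ← h2]
    exact real_inner_le_norm x y
  have h4 : ‖y‖ ≤ ‖x‖ := by
    rcases (norm_nonneg y).eq_or_lt with h | h
    · rw [← h]
      exact norm_nonneg x
    · rw [sq] at h3
      exact le_of_mul_le_mul_right h3 h
  rw [← h1]
  gcongr

lemma norm_WW_le (k : ℕ) (x : H) : ‖WW b k x‖ ≤ ‖x‖ := by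
  have h := bessel_WW b {k} x
  rw [Finset.sum_singleton] at h
  exact le_of_sq_le_sq h (norm_nonneg _)

/-- `ω ↦ ω ∘ (S ↦ V_k S W_k)` -/
noncomputable def Gk (k : ℕ) : StrongDual ℝ (KT H) →L[ℝ] StrongDual ℝ (KT H) :=
  (ContinuousLinearMap.compL ℝ (KT H) (KT H) ℝ).flip
    (cmp (VV b k).toContinuousLinearMap (WW b k))

/-- `ω ↦ ω ∘ (S ↦ W_k S V_k)` -/
noncomputable def Tk (k : ℕ) : StrongDual ℝ (KT H) →L[ℝ] StrongDual ℝ (KT H) :=
  (ContinuousLinearMap.compL ℝ (KT H) (KT H) ℝ).flip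
    (cmp (WW b k) (VV b k).toContinuousLinearMap)

lemma Gk_apply (k : ℕ) (ω : StrongDual ℝ (KT H)) :
    Gk b k ω = ω.comp (cmp (VV b k).toContinuousLinearMap (WW b k)) := rfl

lemma Tk_apply (k : ℕ) (ω : StrongDual ℝ (KT H)) :
    Tk b k ω = ω.comp (cmp (WW b k) (VV b k).toContinuousLinearMap) := rfl

lemma sum_norm_Gk (s : Finset ℕ) (ω : StrongDual ℝ (KT H)) : ∑ k ∈ s, ‖Gk b k ω‖ ≤ ‖ω‖ := by
  refine le_of_forall_pos_le_add fun ε hε => ?_
  have hδ : 0 < ε / ((s.card : ℝ) + 1) := by positivity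
  choose S hS1 hS2 using fun k => exists_almost_norming (Gk b k ω) hδ
  have h1 : ‖∑ k ∈ s, cmp (VV b k).toContinuousLinearMap (WW b k) (S k)‖ ≤ 1 := by
    refine kop_norm_le zero_le_one fun x => ?_
    rw [kt_sum_apply, one_mul]
    change ‖∑ k ∈ s, VV b k ((S k : H →L[ℝ] H) (WW b k x))‖ ≤ ‖x‖
    refine le_of_sq_le_sq ?_ (norm_nonneg _)
    rw [norm_sum_VV]
    refine (Finset.sum_le_sum fun k _ => ?_).trans (bessel_WW b s x)
    have : ‖(S k : H →L[ℝ] H) (WW b k x)‖ ≤ ‖WW b k x‖ := by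
      refine (kop_le _ _).trans ?_
      calc ‖S k‖ * ‖WW b k x‖ ≤ 1 * ‖WW b k x‖ := by
            gcongr
            exact hS1 k
        _ = _ := one_mul _
    gcongr
  have h2 : ω (∑ k ∈ s, cmp (VV b k).toContinuousLinearMap (WW b k) (S k)) ≤ ‖ω‖ := by
    calc _ ≤ ‖ω (∑ k ∈ s, cmp (VV b k).toContinuousLinearMap (WW b k) (S k))‖ :=
          Real.le_norm_self _
      _ ≤ ‖ω‖ * ‖∑ k ∈ s, cmp (VV b k).toContinuousLinearMap (WW b k) (S k)‖ := ω.le_opNorm _
      _ ≤ ‖ω‖ * 1 := by gcongr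
      _ = ‖ω‖ := mul_one _
  rw [map_sum] at h2
  have h3 : ∑ k ∈ s, (‖Gk b k ω‖ - ε / ((s.card : ℝ) + 1)) ≤
      ∑ k ∈ s, ω (cmp (VV b k).toContinuousLinearMap (WW b k) (S k)) :=
    Finset.sum_le_sum fun k _ => hS2 k
  rw [Finset.sum_sub_distrib, Finset.sum_const, nsmul_eq_mul] at h3
  have h4 : (s.card : ℝ) * (ε / ((s.card : ℝ) + 1)) ≤ ε := by
    rw [mul_div_assoc', div_le_iff₀ (by positivity)]
    nlinarith
  linarith

lemma norm_Tk_le (k : ℕ) (ω : StrongDual ℝ (KT H)) : ‖Tk b k ω‖ ≤ 1 * ‖ω‖ := by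
  refine ContinuousLinearMap.opNorm_le_bound _ (by positivity) fun S => ?_
  rw [one_mul]
  refine (ω.le_opNorm _).trans ?_
  gcongr
  exact norm_cmp_le (norm_WW_le b k) (fun x => (LinearIsometry.norm_map _ _).le) S

lemma Gk_Tk_self (k : ℕ) (ω : StrongDual ℝ (KT H)) : Gk b k (Tk b k ω) = ω := by
  refine ContinuousLinearMap.ext fun S => ?_
  change ω (cmp (WW b k) (VV b k).toContinuousLinearMap
    (cmp (VV b k).toContinuousLinearMap (WW b k) S)) = ω S
  congr 1
  refine kop_ext fun x => ?_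
  change WW b k (VV b k ((S : H →L[ℝ] H) (WW b k (VV b k x)))) = _
  rw [WW_VV_self, WW_VV_self]

lemma Gk_Tk_ne {k l : ℕ} (h : k ≠ l) (ω : StrongDual ℝ (KT H)) : Gk b k (Tk b l ω) = 0 := by
  refine ContinuousLinearMap.ext fun S => ?_
  change ω (cmp (WW b l) (VV b l).toContinuousLinearMap
    (cmp (VV b k).toContinuousLinearMap (WW b k) S)) = 0
  have e : cmp (WW b l) (VV b l).toContinuousLinearMap
    (cmp (VV b k).toContinuousLinearMap (WW b k) S) = 0 := by
    refine kop_ext fun x => ?_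
    change WW b l (VV b k ((S : H →L[ℝ] H) (WW b k (VV b l x)))) = 0
    rw [WW_VV_ne b h.symm]
  rw [e, map_zero]

end Shift

/-- A space `X` with suitable block maps is isomorphic to its infinite `ℓ¹`-sum. -/
theorem iso_lp_one_of_blocks {X : Type*} [NormedAddCommGroup X] [NormedSpace ℝ X]
    [CompleteSpace X] (G T : ℕ → X →L[ℝ] X) (C D : ℝ)
    (hG : ∀ (s : Finset ℕ) x, ∑ k ∈ s, ‖G k x‖ ≤ C * ‖x‖) (hT : ∀ k x, ‖T k x‖ ≤ D * ‖x‖)
    (h1 : ∀ k x, G k (T k x) = x) (h2 : ∀ k l, k ≠ l → ∀ x, G k (T l x) = 0) :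
    Nonempty (X ≃L[ℝ] lp (fun _ : ℕ => X) 1) := by
  have hsum : ∀ x, Summable fun k => ‖G k x‖ := fun x =>
    summable_of_sum_le (fun k => norm_nonneg _) (fun s => hG s x)
  have hmem : ∀ x, Memℓp (E := fun _ : ℕ => X) (fun k => G k x) 1 := fun x => by
    apply memℓp_gen
    simpa using hsum x
  let G' : X →L[ℝ] lp (fun _ : ℕ => X) 1 := LinearMap.mkContinuous
    { toFun := fun x => ⟨_, hmem x⟩
      map_add' := fun x y => by
        ext k
        change G k (x + y) = G k x + G k y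
        rw [map_add]
      map_smul' := fun c x => by
        ext k
        change G k (c • x) = c • G k x
        rw [map_smul] } C (fun x => by
      rw [lp1_norm]
      exact (hsum x).tsum_le_of_sum_le (fun s => hG s x))
  have hG' : ∀ x k, G' x k = G k x := fun x k => rfl
  let T' : lp (fun _ : ℕ => X) 1 →L[ℝ] X := glue T D hT
  have hGT : G'.comp T' = ContinuousLinearMap.id ℝ _ := by
    refine sgl_ext fun l x => ?_
    change G' (T' (sgl X l x)) = sgl X l x
    have e1 : T' (sgl X l x) = T l x := by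
      change glue T D hT _ = _
      rw [sgl_apply, glue_single]
    rw [e1]
    ext k
    rw [hG', sgl_apply]
    by_cases hk : k = l
    · subst hk
      rw [lp.single_apply_self, h1]
    · rw [lp.single_apply_ne _ _ _ hk, h2 k l hk]
  obtain ⟨e⟩ := pelczynski (X := lp (fun _ : ℕ => X) 1) (Y := X)
    (lp_one_self_sum_of (F := fun _ : ℕ => X) Nat.pairEquiv
      (fun _ _ => LinearIsometryEquiv.refl ℝ X))
    (sgl X 0) (ev0 X) (fun y => by rw [ev0_sgl, if_pos rfl])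
    T' G' (fun x => DFunLike.congr_fun hGT x)
  exact ⟨e.symm⟩

/-- The dual of the space of compact operators is isomorphic to its `ℓ¹`-sum. -/
theorem kop_dual_iso (b : HilbertBasis ℕ ℝ H) :
    Nonempty (StrongDual ℝ (KT H) ≃L[ℝ] lp (fun _ : ℕ => StrongDual ℝ (KT H)) 1) :=
  iso_lp_one_of_blocks (Gk b) (Tk b) 1 1 (fun s x => by rw [one_mul]; exact sum_norm_Gk b s x)
    (norm_Tk_le b) (Gk_Tk_self b) (fun _ _ h => Gk_Tk_ne b h)

end Vale.Agent.P124.H440
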