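import Mathlib
import Vale.Agent.P124.H440.KHpel

open Filter Topology MeasureTheory
open scoped NNReal ENNReal RealInnerProductSpace

namespace Vale.Agent.P124.H440

open NormedSpace Vale.Agent.P124.R2

/-- Duals of subspaces of spaces with separable dual are separable. -/
lemma separable_dual_of_isometry {Z W : Type*} [NormedAddCommGroup Z] [NormedSpace ℝ Z]
    [NormedAddCommGroup W] [NormedSpace ℝ W] (j : Z →ₗᵢ[ℝ] W)
    (hW : TopologicalSpace.SeparableSpace (StrongDual ℝ W)) :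
    TopologicalSpace.SeparableSpace (StrongDual ℝ Z) := by
  let R : StrongDual ℝ W →L[ℝ] StrongDual ℝ Z :=
    (ContinuousLinearMap.compL ℝ Z W ℝ).flip j.toContinuousLinearMap
  have hR : Function.Surjective R := by
    intro f
    obtain ⟨g, -, hg⟩ := exists_ext j.toLinearMap (fun v => j.norm_map v) f
    exact ⟨g, ContinuousLinearMap.ext hg⟩
  obtain ⟨s, hs, hd⟩ := hW
  exact ⟨⟨R '' s, hs.image _, hR.denseRange.dense_image R.continuous hd⟩⟩

variable {H : Type*} [NormedAddCommGroup H] [InnerProductSpace ℝ H]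

/-- A space of compact operators as a subspace of `KT H`. -/
noncomputable def toKT {Z : Type*} [NormedAddCommGroup Z] [NormedSpace ℝ Z]
    (j : Z →ₗᵢ[ℝ] (H →L[ℝ] H)) (hj : ∀ z, IsCompactOperator (j z)) : Z →ₗᵢ[ℝ] KT H where
  toFun z := ⟨j z, hj z⟩
  map_add' x y := kop_ext fun z => by
    change j (x + y) z = j x z + j y z
    rw [map_add]
    rfl
  map_smul' c x := kop_ext fun z => by
    change j (c • x) z = c • j x z
    rw [map_smul]
    rfl
  norm_map' x := j.norm_map x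

lemma iso_lp_one_congr {X X' : Type*} [NormedAddCommGroup X] [NormedSpace ℝ X]
    [NormedAddCommGroup X'] [NormedSpace ℝ X'] [CompleteSpace X']
    (e : X ≃L[ℝ] X') (G T : ℕ → X →L[ℝ] X)
    (hG : ∀ (s : Finset ℕ) x, ∑ k ∈ s, ‖G k x‖ ≤ ‖x‖) (hT : ∀ k x, ‖T k x‖ ≤ ‖x‖)
    (h1 : ∀ k x, G k (T k x) = x) (h2 : ∀ k l, k ≠ l → ∀ x, G k (T l x) = 0) :
    Nonempty (X' ≃L[ℝ] lp (fun _ : ℕ => X') 1) := by
  refine iso_lp_one_of_blocks
    (fun k => (e : X →L[ℝ] X').comp ((G k).comp (e.symm : X' →L[ℝ] X)))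
    (fun k => (e : X →L[ℝ] X').comp ((T k).comp (e.symm : X' →L[ℝ] X)))
    (‖(e : X →L[ℝ] X')‖ * ‖(e.symm : X' →L[ℝ] X)‖) (‖(e : X →L[ℝ] X')‖ * ‖(e.symm : X' →L[ℝ] X)‖)
    (fun s x => ?_) (fun k x => ?_) (fun k x => ?_) (fun k l hkl x => ?_)
  · calc ∑ k ∈ s, ‖e (G k (e.symm x))‖ ≤ ∑ k ∈ s, ‖(e : X →L[ℝ] X')‖ * ‖G k (e.symm x)‖ :=
          Finset.sum_le_sum fun k _ => (e : X →L[ℝ] X').le_opNorm _
      _ = ‖(e : X →L[ℝ] X')‖ * ∑ k ∈ s, ‖G k (e.symm x)‖ := by rw [Finset.mul_sum]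
      _ ≤ ‖(e : X →L[ℝ] X')‖ * ‖e.symm x‖ := by
          gcongr
          exact hG s _
      _ ≤ ‖(e : X →L[ℝ] X')‖ * (‖(e.symm : X' →L[ℝ] X)‖ * ‖x‖) := by
          gcongr
          exact (e.symm : X' →L[ℝ] X).le_opNorm _
      _ = _ := by ring
  · calc ‖e (T k (e.symm x))‖ ≤ ‖(e : X →L[ℝ] X')‖ * ‖T k (e.symm x)‖ :=
          (e : X →L[ℝ] X').le_opNorm _
      _ ≤ ‖(e : X →L[ℝ] X')‖ * ‖e.symm x‖ := by
          gcongr
          exact hT k _
      _ ≤ ‖(e : X →L[ℝ] X')‖ * (‖(e.symm : X' →L[ℝ] X)‖ * ‖x‖) := by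
          gcongr
          exact (e.symm : X' →L[ℝ] X).le_opNorm _
      _ = _ := by ring
  · change e (G k (e.symm (e (T k (e.symm x))))) = x
    rw [e.symm_apply_apply, h1, e.apply_symm_apply]
  · change e (G k (e.symm (e (T l (e.symm x))))) = 0
    rw [e.symm_apply_apply, h2 k l hkl, map_zero]

/-- The dual of the space of all compact operators is isomorphic to its `ℓ¹`-sum. -/
theorem kop_dual_iso' [CompleteSpace H] (b : HilbertBasis ℕ ℝ H)
    {Z : Type*} [NormedAddCommGroup Z] [NormedSpace ℝ Z]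
    (j : Z →ₗᵢ[ℝ] (H →L[ℝ] H)) (hj : ∀ z, IsCompactOperator (j z))
    (hj' : ∀ T : H →L[ℝ] H, IsCompactOperator T → ∃ z, j z = T) :
    Nonempty (StrongDual ℝ Z ≃L[ℝ] lp (fun _ : ℕ => StrongDual ℝ Z) 1) := by
  let e : Z ≃ₗᵢ[ℝ] KT H := LinearIsometryEquiv.ofSurjective (toKT j hj) (fun S => by
    obtain ⟨z, hz⟩ := hj' S.1 S.2
    exact ⟨z, Subtype.ext hz⟩)
  let E : StrongDual ℝ (KT H) ≃L[ℝ] StrongDual ℝ Z :=
    e.symm.toContinuousLinearEquiv.arrowCongr (ContinuousLinearEquiv.refl ℝ ℝ)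
  exact iso_lp_one_congr E (Gk b) (Tk b) (fun s x => sum_norm_Gk b s x)
    (fun k ω => by simpa using norm_Tk_le b k ω) (Gk_Tk_self b) (fun _ _ h => Gk_Tk_ne b h)

/-- Spaces of compact operators on a separable Hilbert space are M-embedded. -/
theorem memb_compact [CompleteSpace H] (b : HilbertBasis ℕ ℝ H)
    {Z : Type*} [NormedAddCommGroup Z] [NormedSpace ℝ Z]
    (j : Z →ₗᵢ[ℝ] (H →L[ℝ] H)) (hj : ∀ z, IsCompactOperator (j z)) : MEmb Z :=
  MEmb.of_isometry (memb_kop b) (toKT j hj)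

theorem separable_compact [CompleteSpace H] (b : HilbertBasis ℕ ℝ H)
    {Z : Type*} [NormedAddCommGroup Z] [NormedSpace ℝ Z]
    (j : Z →ₗᵢ[ℝ] (H →L[ℝ] H)) (hj : ∀ z, IsCompactOperator (j z)) :
    TopologicalSpace.SeparableSpace (StrongDual ℝ Z) :=
  separable_dual_of_isometry (toKT j hj) (separable_dual_kop b)

end Vale.Agent.P124.H440
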