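import Mathlib
import Vale.Agent.P124.H440.Inst

open Filter Topology MeasureTheory
open scoped NNReal ENNReal

namespace Vale.Agent.P124.H440

open NormedSpace

/-- The modulus of weak* asymptotic uniform convexity at `1` of the dual `X` of `Z` is at least
`δ`: if `x` is in the dual of `Z` and `u n` is a weak* null sequence with `‖x‖ ≤ ‖u n‖` and
`‖x + u n‖ ≤ r` for all `n`, then `(1 + δ) ‖x‖ ≤ r`. -/
def WAUC (δ : ℝ) (Z : Type*) [NormedAddCommGroup Z] [NormedSpace ℝ Z] : Prop :=
  ∀ (x : StrongDual ℝ Z) (u : ℕ → StrongDual ℝ Z) (r : ℝ),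
    (∀ z, Tendsto (fun n => u n z) atTop (𝓝 0)) → (∀ n, ‖x‖ ≤ ‖u n‖) →
    (∀ n, ‖x + u n‖ ≤ r) → (1 + δ) * ‖x‖ ≤ r

/-- Goldstine's theorem, for finitely many functionals. -/
lemma goldstine {X : Type*} [NormedAddCommGroup X] [NormedSpace ℝ X]
    (ξ : StrongDual ℝ (StrongDual ℝ X)) (R : ℝ) (hR : 0 ≤ R) (hξ : ∀ F, ξ F ≤ R * ‖F‖) (m : ℕ)
    (f : Fin m → StrongDual ℝ X) {ε : ℝ} (hε : 0 < ε) : ∃ y : X, ‖y‖ ≤ R ∧ ∀ i, |f i y - ξ (f i)| < ε := by
  let Φ : X →L[ℝ] (Fin m → ℝ) := ContinuousLinearMap.pi f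
  let C : Set (Fin m → ℝ) := Φ '' Metric.closedBall 0 R
  have hC : Convex ℝ C := (convex_closedBall _ _).linear_image Φ.toLinearMap
  have hmem : (fun i => ξ (f i)) ∈ closure C := by
    by_contra hn
    obtain ⟨g, s, hg1, hg2⟩ := geometric_hahn_banach_closed_point hC.closure isClosed_closure hn
    let F : StrongDual ℝ X := ∑ i, g (Pi.single i 1) • f i
    have hgF : ∀ v : Fin m → ℝ, g v = ∑ i, v i * g (Pi.single i 1) := by
      intro v
      have hv : v = ∑ i, v i • (Pi.single i (1 : ℝ) : Fin m → ℝ) := by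
        funext j
        rw [Finset.sum_apply]
        simp [Pi.single_apply]
      conv_lhs => rw [hv]
      rw [map_sum]
      refine Finset.sum_congr rfl fun i _ => ?_
      rw [map_smul, smul_eq_mul]
    have hF : ∀ y, F y = g (Φ y) := by
      intro y
      rw [hgF]
      change (∑ i, g (Pi.single i 1) • f i) y = _
      rw [ContinuousLinearMap.sum_apply]
      refine Finset.sum_congr rfl fun i _ => ?_
      change g (Pi.single i 1) * f i y = f i y * g (Pi.single i 1)
      ring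
    have hξF : ξ F = g (fun i => ξ (f i)) := by
      rw [hgF]
      change ξ (∑ i, g (Pi.single i 1) • f i) = _
      rw [map_sum]
      refine Finset.sum_congr rfl fun i _ => ?_
      rw [map_smul, smul_eq_mul]
      ring
    have h1 : ∀ y ∈ Metric.closedBall (0 : X) R, F y < s := fun y hy => by
      rw [hF]
      exact hg1 _ (subset_closure ⟨y, hy, rfl⟩)
    have h2 : R * ‖F‖ ≤ s := by
      rcases eq_or_lt_of_le hR with h0 | h0
      · rw [← h0, zero_mul]
        have := h1 0 (by rw [← h0]; simp)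
        rw [map_zero] at this
        exact this.le
      refine le_of_forall_pos_le_add fun η hη => ?_
      obtain ⟨y, hy1, hy2⟩ := exists_almost_norming F (ε := η / R) (by positivity)
      have h3 := h1 (R • y) (by
        rw [mem_closedBall_zero_iff, norm_smul, Real.norm_of_nonneg hR]
        calc R * ‖y‖ ≤ R * 1 := by gcongr
          _ = R := mul_one _)
      rw [map_smul, smul_eq_mul] at h3
      have h4 : R * (‖F‖ - η / R) ≤ R * F y := by gcongr
      have h5 : R * (‖F‖ - η / R) = R * ‖F‖ - η := by field_simp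
      linarith
    have h3 : ξ F ≤ R * ‖F‖ := hξ F
    rw [hξF] at h3
    linarith
  obtain ⟨_, ⟨y, hy, rfl⟩, hyd⟩ := Metric.mem_closure_iff.1 hmem ε hε
  refine ⟨y, mem_closedBall_zero_iff.1 hy, fun i => ?_⟩
  have h1 := (dist_le_pi_dist (fun i => ξ (f i)) (Φ y) i).trans_lt hyd
  rw [Real.dist_eq, abs_sub_comm] at h1
  exact h1

/-- A bounded sequence in the dual that converges to zero on a norming set of vectors converges
weak* to zero. -/
lemma weakstar_null_of_norming {Z : Type*} [NormedAddCommGroup Z] [NormedSpace ℝ Z]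
    (z : ℕ → Z) (hz : ∀ x : StrongDual ℝ Z, ∀ ε > 0, ∃ n, ‖x‖ - ε ≤ |x (z n)|)
    (u : ℕ → StrongDual ℝ Z) (C : ℝ) (hu : ∀ n, ‖u n‖ ≤ C)
    (h : ∀ k, Tendsto (fun n => u n (z k)) atTop (𝓝 0)) (w : Z) :
    Tendsto (fun n => u n w) atTop (𝓝 0) := by
  -- the set of all `w` is a closed subspace
  let S : Submodule ℝ Z :=
    { carrier := {w | Tendsto (fun n => u n w) atTop (𝓝 0)}
      add_mem' := fun {a b} ha hb => by
        have := Tendsto.add ha hb
        simpa using this
      zero_mem' := by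
        simp
      smul_mem' := fun c a ha => by
        have := Tendsto.const_smul ha c
        simpa using this }
  have hC : 0 ≤ C := (norm_nonneg _).trans (hu 0)
  have hSc : IsClosed (S : Set Z) := by
    rw [← isSeqClosed_iff_isClosed]
    intro a b ha hab
    change Tendsto (fun n => u n b) atTop (𝓝 0)
    rw [Metric.tendsto_atTop]
    intro ε hε
    obtain ⟨k, hk⟩ := (Metric.tendsto_atTop.1 hab (ε / (2 * (C + 1))) (by positivity))
    have hk := hk k le_rfl
    obtain ⟨N, hN⟩ := Metric.tendsto_atTop.1 (ha k) (ε / 2) (by positivity)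
    refine ⟨N, fun n hn => ?_⟩
    have h1 := hN n hn
    rw [dist_zero_right] at h1 ⊢
    have h2 : ‖u n (b - a k)‖ ≤ C * ‖b - a k‖ := (u n).le_of_opNorm_le (hu n) _
    rw [dist_eq_norm, norm_sub_rev] at hk
    have h3 : C * ‖b - a k‖ ≤ (C + 1) * (ε / (2 * (C + 1))) := by
      gcongr
      linarith
    have h4 : (C + 1) * (ε / (2 * (C + 1))) = ε / 2 := by field_simp
    calc ‖u n b‖ = ‖u n (b - a k) + u n (a k)‖ := by rw [← map_add]; congr 2; abel
      _ ≤ ‖u n (b - a k)‖ + ‖u n (a k)‖ := norm_add_le _ _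
      _ < ε := by linarith
  by_contra hw
  -- a functional vanishing on `S`
  obtain ⟨g, hg1, hg2⟩ : ∃ g : StrongDual ℝ Z, (∀ a ∈ S, g a = 0) ∧ g w ≠ 0 := by
    obtain ⟨g, s, h1, h2⟩ := geometric_hahn_banach_closed_point S.convex hSc hw
    have h0 : ∀ a ∈ S, g a = 0 := by
      intro a ha
      by_contra hne
      have h3 := h1 ((s / g a) • a) (S.smul_mem _ ha)
      rw [map_smul, smul_eq_mul, div_mul_cancel₀ _ hne] at h3
      exact lt_irrefl _ h3
    refine ⟨g, h0, ?_⟩
    have h3 := h1 0 S.zero_mem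
    rw [map_zero] at h3
    linarith
  have hg0 : g = 0 := by
    rw [← norm_le_zero_iff]
    refine le_of_forall_pos_le_add fun ε hε => ?_
    obtain ⟨n, hn⟩ := hz g ε hε
    rw [hg1 _ (h n), abs_zero] at hn
    linarith
  exact hg2 (by rw [hg0]; rfl)

section Dual

variable {Z X : Type*} [NormedAddCommGroup Z] [NormedSpace ℝ Z]
  [NormedAddCommGroup X] [NormedSpace ℝ X]

/-- The canonical embedding of a predual into the dual. -/
noncomputable def canon (d : X ≃ₗᵢ[ℝ] StrongDual ℝ Z) : Z →L[ℝ] StrongDual ℝ X :=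
  LinearMap.mkContinuous
    { toFun := fun w => (inclusionInDoubleDual ℝ Z w).comp
        (d.toContinuousLinearEquiv : X →L[ℝ] StrongDual ℝ Z)
      map_add' := fun w w' => by
        rw [map_add]
        rfl
      map_smul' := fun c w => by
        rw [map_smul]
        rfl } 1 (fun w => by
      refine ContinuousLinearMap.opNorm_le_bound _ (by positivity) fun x => ?_
      change ‖d x w‖ ≤ 1 * ‖w‖ * ‖x‖
      refine ((d x).le_opNorm w).trans_eq ?_
      rw [d.norm_map]
      ring)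

lemma canon_apply (d : X ≃ₗᵢ[ℝ] StrongDual ℝ Z) (w : Z) (x : X) : canon d w x = d x w := rfl

lemma norm_canon_le (d : X ≃ₗᵢ[ℝ] StrongDual ℝ Z) (w : Z) : ‖canon d w‖ ≤ ‖w‖ := by
  have h : ‖canon d‖ ≤ 1 := LinearMap.mkContinuous_norm_le _ zero_le_one _
  simpa using (canon d).le_of_opNorm_le h w

/-- The key inequality for weak* asymptotically uniformly convex duals: here `x` is in the dual
`X` of `Z` and `k` in the bidual of `X` vanishes on `Z`. -/
lemma wauc_aux {δ : ℝ} (h : WAUC δ Z) (d : X ≃ₗᵢ[ℝ] StrongDual ℝ Z)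
    (z : ℕ → Z) (hz : ∀ x : StrongDual ℝ Z, ∀ ε > 0, ∃ n, ‖x‖ - ε ≤ |x (z n)|)
    (x : X) (k : StrongDual ℝ (StrongDual ℝ X))
    (hk : ∀ w, k (canon d w) = 0) (K R : ℝ) (hK : ‖x‖ < K)
    (hkK : ∃ f : StrongDual ℝ X, ‖f‖ ≤ 1 ∧ K ≤ k f)
    (hR : ∀ F : StrongDual ℝ X, F x + k F ≤ R * ‖F‖) :
    (1 + δ) * ‖x‖ ≤ R := by
  obtain ⟨f, hf1, hf2⟩ := hkK
  have hR0 : 0 ≤ R := by
    have h1 := hR f
    have h2 := hR (-f)
    rw [norm_neg, map_neg] at h2
    have e : (-f) x = -(f x) := rfl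
    rw [e] at h2
    have h3 : 0 ≤ R * ‖f‖ := by linarith
    have hfne : f ≠ 0 := by
      rintro rfl
      rw [map_zero] at hf2
      linarith [norm_nonneg x]
    exact nonneg_of_mul_nonneg_left h3 (norm_pos_iff.2 hfne)
  have key : ∀ n : ℕ, ∃ y : X, ‖y‖ ≤ R ∧
      (|f y - (f x + k f)| < 1 / ((n : ℝ) + 1)) ∧
      ∀ i < n, |d y (z i) - d x (z i)| < 1 / ((n : ℝ) + 1) := by
    intro n
    let ff : Fin (n + 1) → StrongDual ℝ X :=
      Fin.cons f (fun i : Fin n => canon d (z i))
    obtain ⟨y, hy1, hy2⟩ := goldstine (inclusionInDoubleDual ℝ X x + k) R hR0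
      (fun F => hR F) (n + 1) ff (ε := 1 / ((n : ℝ) + 1)) (by positivity)
    refine ⟨y, hy1, hy2 0, fun i hi => ?_⟩
    have h1 := hy2 (Fin.succ ⟨i, hi⟩)
    have e : (inclusionInDoubleDual ℝ X x + k) (ff (Fin.succ ⟨i, hi⟩))
        = d x (z i) + 0 := by
      rw [← hk (z i)]
      rfl
    rw [e, add_zero] at h1
    exact h1
  choose y hy1 hy2 hy3 using key
  have hlim : Tendsto (fun n : ℕ => 1 / ((n : ℝ) + 1)) atTop (𝓝 0) :=
    tendsto_one_div_add_atTop_nhds_zero_nat
  obtain ⟨N, hN⟩ := (hlim.eventually (gt_mem_nhds (sub_pos.2 hK))).exists_forall_of_atTop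
  let u : ℕ → X := fun n => y (n + N) - x
  have hu0 : ∀ n, x + u n = y (n + N) := fun n => by
    simp [u]
  have h0 := h (d x) (fun n => d (u n)) R ?_ ?_ ?_
  · rwa [d.norm_map] at h0
  · refine weakstar_null_of_norming z hz (fun n => d (u n)) (R + ‖x‖) (fun n => ?_) (fun i => ?_)
    · rw [d.norm_map]
      exact (norm_sub_le _ _).trans (by gcongr; exact hy1 _)
    · refine squeeze_zero_norm' (a := fun n : ℕ => 1 / (((n + N : ℕ) : ℝ) + 1)) ?_
        (hlim.comp (tendsto_add_atTop_nat N))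
      filter_upwards [eventually_gt_atTop i] with n hn
      have e : d (u n) (z i) = d (y (n + N)) (z i) - d x (z i) := by
        change d (y (n + N) - x) (z i) = _
        rw [map_sub]
        rfl
      rw [e]
      exact (hy3 (n + N) i (by omega)).le
  · intro n
    rw [d.norm_map, d.norm_map]
    have h1 := (abs_lt.1 (hy2 (n + N))).1
    have h2 := hN (n + N) (by omega)
    have h3 : f (u n) ≤ ‖u n‖ := by
      calc f (u n) ≤ ‖f (u n)‖ := Real.le_norm_self _
        _ ≤ 1 * ‖u n‖ := f.le_of_opNorm_le hf1 _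
        _ = ‖u n‖ := one_mul _
    have h4 : f (u n) = f (y (n + N)) - f x := map_sub f _ _
    linarith
  · intro n
    rw [← map_add, d.norm_map, hu0]
    exact hy1 _

end Dual

lemma wauc_real {a b c δ : ℝ} (ha : 0 ≤ a) (hb : 0 ≤ b) (hc : 0 ≤ c) (hδ : 0 ≤ δ)
    (h : ∀ s : ℝ, 0 ≤ s → s ≤ 1 → s * a < b → (1 + δ) * (s * a) ≤ s * c + (1 - s) * b) :
    min a b ≤ 1 / (1 + δ) * c := by
  rw [one_div, ← div_eq_inv_mul, le_div_iff₀ (by linarith), mul_comm]
  rcases eq_or_lt_of_le (le_min ha hb) with h0 | h0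
  · rw [← h0, mul_zero]
    exact hc
  set t := min a b with ht
  have hta : t ≤ a := min_le_left _ _
  have htb : t ≤ b := min_le_right _ _
  have ha0 : 0 < a := h0.trans_le hta
  -- pass to the limit
  have hlim : ∀ s : ℝ, 0 ≤ s → s ≤ 1 → s * a ≤ b → (1 + δ) * (s * a) ≤ s * c + (1 - s) * b := by
    intro s hs0 hs1 hsb
    have h1 : Tendsto (fun r : ℝ => (1 + δ) * (r * s * a)) (𝓝[<] 1) (𝓝 ((1 + δ) * (1 * s * a))) :=
      ((continuous_const.mul ((continuous_id.mul continuous_const).mul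
        continuous_const)).tendsto 1).mono_left nhdsWithin_le_nhds
    have h2 : Tendsto (fun r : ℝ => r * s * c + (1 - r * s) * b) (𝓝[<] 1)
        (𝓝 (1 * s * c + (1 - 1 * s) * b)) := by
      refine Tendsto.mono_left (Continuous.tendsto ?_ 1) nhdsWithin_le_nhds
      fun_prop
    rw [one_mul] at h1 h2
    refine le_of_tendsto_of_tendsto h1 h2 ?_
    have h3 : ∀ᶠ r : ℝ in 𝓝[<] 1, 0 < r := by
      filter_upwards [Ioo_mem_nhdsLT (show (0 : ℝ) < 1 by norm_num)] with r hr using hr.1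
    filter_upwards [self_mem_nhdsWithin, h3] with r hr1 hr0
    have hr1' : r < 1 := hr1
    rcases eq_or_lt_of_le hs0 with h4 | h4
    · rw [← h4]
      simp only [mul_zero, zero_mul, sub_zero, one_mul, zero_add]
      exact hb
    · refine h (r * s) (by positivity) (by nlinarith) ?_
      have : r * s * a < 1 * s * a := by
        have hsa : 0 < s * a := by positivity
        nlinarith
      linarith
  have h1 := hlim (t / a) (by positivity) ((div_le_one ha0).2 hta) (by
    rw [div_mul_cancel₀ _ ha0.ne']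
    exact htb)
  rw [div_mul_cancel₀ _ ha0.ne'] at h1
  set s := t / a with hs
  have hs0 : 0 < s := by positivity
  have hs1 : s ≤ 1 := (div_le_one ha0).2 hta
  rcases min_choice a b with h2 | h2
  · have e : s = 1 := by
      rw [hs, ht, h2, div_self ha0.ne']
    rw [e] at h1
    linarith
  · have e : b = t := by rw [ht, h2]
    rw [e] at h1
    have h3 : s * ((1 + δ) * t) ≤ s * c := by
      have h4 : s * (δ * t) ≤ 1 * (δ * t) := by gcongr
      nlinarith
    exact le_of_mul_le_mul_left h3 hs0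

/-- Separable duals `X` with `δ_X^*(1) ≥ δ` are `1 / (1 + δ)`-split. -/
theorem Split.of_wauc {Z X : Type*} [NormedAddCommGroup Z] [NormedSpace ℝ Z]
    [NormedAddCommGroup X] [NormedSpace ℝ X] [TopologicalSpace.SeparableSpace X]
    (d : X ≃ₗᵢ[ℝ] StrongDual ℝ Z) {δ : ℝ} (hδ : 0 ≤ δ) (h : WAUC δ Z) :
    Split (1 / (1 + δ)) X := by
  have : TopologicalSpace.SeparableSpace (StrongDual ℝ Z) :=
    d.surjective.denseRange.separableSpace d.continuous
  obtain ⟨z, -, hz⟩ := exists_norming_pred Z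
  have hPn : ∀ φ : StrongDual ℝ (StrongDual ℝ X), ‖φ.comp (canon d)‖ ≤ ‖φ‖ := by
    intro φ
    have h0 : 0 ≤ ‖φ‖ := norm_nonneg φ
    refine ContinuousLinearMap.opNorm_le_bound _ h0 fun w => ?_
    refine (φ.le_opNorm _).trans ?_
    gcongr
    exact norm_canon_le d w
  refine ⟨
    { toFun := fun φ => d.symm (φ.comp (canon d))
      map_add' := fun φ ψ => by
        rw [← map_add]
        rfl
      map_smul' := fun a φ => by
        rw [RingHom.id_apply, ← map_smul]
        rfl }, fun x => ?_, ⟨1, fun φ => ?_⟩, fun φ => ?_⟩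
  · change d.symm ((inclusionInDoubleDual ℝ X x).comp (canon d)) = x
    rw [← d.symm_apply_apply x]
    congr 1
    ext w
    change canon d w (d.symm (d x)) = d x w
    rw [d.symm_apply_apply, canon_apply]
  · rw [one_mul]
    change ‖d.symm (φ.comp (canon d))‖ ≤ ‖φ‖
    rw [d.symm.norm_map]
    exact hPn φ
  · change min ‖d.symm (φ.comp (canon d))‖
      ‖φ - inclusionInDoubleDual ℝ X (d.symm (φ.comp (canon d)))‖ ≤ _
    obtain ⟨x, hx⟩ : ∃ x, d.symm (φ.comp (canon d)) = x := ⟨_, rfl⟩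
    obtain ⟨k, hk⟩ : ∃ k, φ - inclusionInDoubleDual ℝ X x = k := ⟨_, rfl⟩
    rw [hx, hk]
    have h0 : 0 ≤ ‖φ‖ := norm_nonneg φ
    have h0' : 0 ≤ ‖k‖ := norm_nonneg k
    refine wauc_real (norm_nonneg x) h0' h0 hδ fun s hs0 hs1 hsb => ?_
    have hφ : ∀ F, φ F = F x + k F := by
      intro F
      rw [← hk]
      change φ F = F x + (φ F - F x)
      ring
    have hkw : ∀ w, k (canon d w) = 0 := by
      intro w
      have h1 := hφ (canon d w)
      rw [canon_apply, ← hx, d.apply_symm_apply] at h1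
      change φ (canon d w) = φ (canon d w) + k (canon d w) at h1
      linarith
    obtain ⟨f, hf1, hf2⟩ := exists_almost_norming k (ε := (‖k‖ - s * ‖x‖) / 2) (by linarith)
    have h1 := wauc_aux h d z hz (s • x) k hkw (‖k‖ - (‖k‖ - s * ‖x‖) / 2)
      (s * ‖φ‖ + (1 - s) * ‖k‖) (by
        rw [norm_smul, Real.norm_of_nonneg hs0]
        linarith) ⟨f, hf1, hf2⟩ (fun F => by
        have h2 : φ F ≤ ‖φ‖ * ‖F‖ := (Real.le_norm_self _).trans (φ.le_opNorm F)
        have h3 : k F ≤ ‖k‖ * ‖F‖ := (Real.le_norm_self _).trans (k.le_opNorm F)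
        have h4 : F (s • x) + k F = s * φ F + (1 - s) * k F := by
          rw [map_smul, smul_eq_mul, hφ]
          ring
        rw [h4]
        have h5 : s * φ F ≤ s * (‖φ‖ * ‖F‖) := by gcongr
        have h6 : (1 - s) * k F ≤ (1 - s) * (‖k‖ * ‖F‖) :=
          mul_le_mul_of_nonneg_left h3 (by linarith)
        linarith)
    rwa [norm_smul, Real.norm_of_nonneg hs0] at h1

end Vale.Agent.P124.H440
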